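import Mathlib

/-! P038 (Seymour's second neighbourhood conjecture), robust version: definitions.

PLAN.  `D : V → V → Prop` is an oriented graph (`∀ x y, D x y → ¬ D y x`).
* `Order`: a rank function maximising the number of forward arcs (median order) of a tournament.
* `Feed`: Havet-Thomasse: the last vertex of a median order has `#N1 ≤ #N2`.
* `Thresh`: if the graph of non-adjacent pairs is a threshold graph `H` then some vertex has
  `#N1 ≤ #N2` (Ghazal / Fidler-Yuster).
* `Tail`, `Pair`, `Num`: sampling with weights `ω`.
* `Sample`: a good sample gives the vertex; `Main`: assembly. -/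

namespace Vale.Agent.P038

/-- First out-neighbourhood. -/
def N1 {V : Type*} (D : V → V → Prop) (v : V) : Set V := {u | D v u}

/-- Second out-neighbourhood: vertices at directed distance exactly two. -/
def N2 {V : Type*} (D : V → V → Prop) (v : V) : Set V :=
  {w | w ≠ v ∧ ¬ D v w ∧ ∃ u, D v u ∧ D u w}

/-- `H` has no alternating 4-cycle, i.e. `H` is a threshold graph. -/
def IsThreshold {V : Type*} (H : SimpleGraph V) : Prop :=
  ∀ a b c d : V, H.Adj a b → H.Adj c d → a ≠ c → b ≠ d → a ≠ d → b ≠ c →
    ¬ H.Adj a c → H.Adj b d

/-- The weight of a set. -/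
noncomputable def wt {V : Type*} [Fintype V] (ω : V → ℝ) (S : Set V) : ℝ := by
  classical exact ∑ v, if v ∈ S then ω v else 0

/-- The pairs which are equal, or on which non-adjacency in `D` and adjacency in `H` differ. -/
def Bad {V : Type*} (D : V → V → Prop) (H : SimpleGraph V) (x y : V) : Prop :=
  x = y ∨ ¬ ((¬ D x y ∧ ¬ D y x) ↔ H.Adj x y)

end Vale.Agent.P038
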