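import Vale.Agent.P038.Exist

/-! P038: if for all distinct non-adjacent `a`, `b` one of the two reaches all out-neighbours of the
other by at most two arcs, then the conjecture holds. -/

namespace Vale.Agent.P038

open Finset

/-- `w` is not `b` and not reached from `b` by at most two arcs. -/
def Far {V : Type} (D : V → V → Prop) (b w : V) : Prop :=
  b ≠ w ∧ ¬ D b w ∧ ¬ ∃ x, D b x ∧ D x w

theorem dom_step {V : Type} [Fintype V] (D E : V → V → Prop) (hDE : ∀ x y, D x y → E x y)
    (hE : ∀ x y, E x y → ¬ E y x) (hA : ∀ a b w, D a w → Far D b w → E a b)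
    (p : V → ℝ) (hp : ∀ v, 0 ≤ p v) (hl : ∀ v, wt p {u | E u v} ≤ wt p {u | E v u}) (w : V) :
    wt p {u | D u w} ≤ wt p {u | u ≠ w ∧ ¬ D u w ∧ ∃ x, D u x ∧ D x w} := by
  classical
  have hD : ∀ x y, D x y → ¬ D y x := fun x y h h' => hE x y (hDE _ _ h) (hDE _ _ h')
  set pA := wt p {u | D u w} with hpA
  set pN := wt p {u | u ≠ w ∧ ¬ D u w ∧ ∃ x, D u x ∧ D x w} with hpN
  set X : ℝ := ∑ b, if Far D b w ∧ E b w then p b else 0 with hX
  set Y : ℝ := ∑ b, if Far D b w ∧ E w b then p b else 0 with hY
  set P : ℝ := ∑ b, if Far D b w then p b else 0 with hP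
  set F : V → ℝ := fun b => ∑ u, if Far D u w ∧ E u b then p u else 0 with hF
  set G : V → ℝ := fun b => ∑ u, if Far D u w ∧ E b u then p u else 0 with hG
  -- at w
  have hw : pA + X ≤ pN + Y := by
    have h1 : pA + X ≤ wt p {u | E u w} := by
      rw [hpA, hX]
      unfold wt
      rw [← sum_add_distrib]
      refine sum_le_sum fun u _ => ?_
      simp only [Set.mem_ofPred_eq]
      by_cases h : D u w
      · have h2 : ¬ Far D u w := fun h' => h'.2.1 h
        simp [h, hDE _ _ h, h2]
      · by_cases h3 : E u w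
        · simp only [h, h3, if_false, if_true, zero_add, and_true]
          split_ifs <;> linarith [hp u]
        · simp [h, h3]
    have h2 : wt p {u | E w u} ≤ pN + Y := by
      rw [hpN, hY]
      unfold wt
      rw [← sum_add_distrib]
      refine sum_le_sum fun u _ => ?_
      simp only [Set.mem_ofPred_eq]
      by_cases h : E w u
      · have h3 : u ≠ w := fun h' => hE _ _ h (h' ▸ h)
        have h4 : ¬ D u w := fun h' => hE _ _ h (hDE _ _ h')
        by_cases h5 : ∃ x, D u x ∧ D x w
        · simp only [h, h3, h4, h5, if_true, not_false_eq_true, ne_eq, and_self, and_true]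
          split_ifs <;> linarith [hp u]
        · have h6 : Far D u w := ⟨h3, h4, h5⟩
          simp [h, h6, h5]
      · simp only [h, if_false]
        split_ifs <;> linarith [hp u]
    linarith [hl w]
  -- at b
  have hb : ∀ b, Far D b w → pA + F b + (if E w b then p w else 0)
      ≤ pN + G b + (if E b w then p w else 0) := by
    intro b hb
    obtain ⟨hb1, hb2, hb3⟩ := hb
    have e1 : (if E w b then p w else 0) = ∑ u, if u = w ∧ E w b then p w else 0 := by
      by_cases h : E w b <;> simp [h]
    have e2 : (if E b w then p w else 0) = ∑ u, if u = w ∧ E b w then p w else 0 := by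
      by_cases h : E b w <;> simp [h]
    have h1 : pA + F b + (if E w b then p w else 0) ≤ wt p {u | E u b} := by
      rw [hpA, hF, e1]
      unfold wt
      rw [← sum_add_distrib, ← sum_add_distrib]
      refine sum_le_sum fun u _ => ?_
      simp only [Set.mem_ofPred_eq]
      by_cases h : D u w
      · have h2 : E u b := hA u b w h ⟨hb1, hb2, hb3⟩
        have h3 : ¬ Far D u w := fun h' => h'.2.1 h
        have h4 : u ≠ w := fun h' => hD _ _ h (h' ▸ h)
        simp [h, h2, h3, h4]
      · by_cases h4 : u = w
        · have h5 : ¬ Far D u w := fun h' => h'.1 h4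
          subst h4
          by_cases h6 : E u b <;> simp [h, h5, h6]
        · by_cases h6 : E u b
          · simp only [h, h4, h6, if_false, if_true, zero_add, and_true, false_and, add_zero]
            split_ifs <;> linarith [hp u]
          · simp [h, h4, h6]
    have h2 : wt p {u | E b u} ≤ pN + G b + (if E b w then p w else 0) := by
      rw [hpN, hG, e2]
      unfold wt
      rw [← sum_add_distrib, ← sum_add_distrib]
      refine sum_le_sum fun u _ => ?_
      simp only [Set.mem_ofPred_eq]
      by_cases h : E b u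
      · have h3 : ¬ D u w := fun h' => hE _ _ h (hA u b w h' ⟨hb1, hb2, hb3⟩)
        by_cases h4 : u = w
        · subst h4
          have h5 : ¬ Far D u u := fun h' => h'.1 rfl
          simp [h, h5]
        · by_cases h5 : ∃ x, D u x ∧ D x w
          · have h6 : ¬ Far D u w := fun h' => h'.2.2 h5
            simp [h, h3, h4, h5, h6]
          · have h6 : Far D u w := ⟨h4, h3, h5⟩
            simp [h, h4, h5, h6]
      · simp only [h, if_false, and_false, add_zero]
        refine add_nonneg ?_ ?_
        · split_ifs <;> linarith [hp u]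
        · split_ifs <;> linarith [hp w]
    linarith [hl b]
  -- sum over far
  have hsum : ∑ b, (if Far D b w then p b * (F b - G b) else 0) = 0 := by
    have e1 : ∑ b, (if Far D b w then p b * F b else 0)
        = ∑ b, ∑ u, (if Far D b w ∧ Far D u w ∧ E u b then p b * p u else 0) := by
      refine sum_congr rfl fun b _ => ?_
      by_cases hb : Far D b w
      · simp only [hb, if_true, hF, mul_sum, true_and]
        refine sum_congr rfl fun u _ => ?_
        split_ifs <;> simp
      · simp [hb]
    have e2 : ∑ b, (if Far D b w then p b * G b else 0)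
        = ∑ b, ∑ u, (if Far D b w ∧ Far D u w ∧ E b u then p b * p u else 0) := by
      refine sum_congr rfl fun b _ => ?_
      by_cases hb : Far D b w
      · simp only [hb, if_true, hG, mul_sum, true_and]
        refine sum_congr rfl fun u _ => ?_
        split_ifs <;> simp
      · simp [hb]
    have e3 : ∑ b, ∑ u, (if Far D b w ∧ Far D u w ∧ E u b then p b * p u else 0)
        = ∑ b, ∑ u, (if Far D b w ∧ Far D u w ∧ E b u then p b * p u else 0) := by
      rw [sum_comm]
      refine sum_congr rfl fun b _ => sum_congr rfl fun u _ => ?_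
      by_cases h : Far D b w ∧ Far D u w ∧ E b u
      · rw [if_pos h, if_pos ⟨h.2.1, h.1, h.2.2⟩, mul_comm]
      · rw [if_neg h, if_neg fun h' => h ⟨h'.2.1, h'.1, h'.2.2⟩]
    have e4 : ∑ b, (if Far D b w then p b * (F b - G b) else 0)
        = ∑ b, (if Far D b w then p b * F b else 0)
          - ∑ b, (if Far D b w then p b * G b else 0) := by
      rw [← sum_sub_distrib]
      refine sum_congr rfl fun b _ => ?_
      split_ifs <;> ring
    rw [e4, e1, e2, e3, sub_self]
  have hmain : P * (pA - pN) ≤ p w * (X - Y) := by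
    have h1 : ∑ b, (if Far D b w then p b * (pA - pN + (F b - G b)) else 0)
        ≤ ∑ b, ((if Far D b w ∧ E b w then p b else 0) * p w
          - (if Far D b w ∧ E w b then p b else 0) * p w) := by
      refine sum_le_sum fun b _ => ?_
      by_cases h : Far D b w
      · have h2 := hb b h
        have h3 : pA - pN + (F b - G b) ≤ (if E b w then p w else 0) - (if E w b then p w else 0) := by
          linarith
        have h4 := mul_le_mul_of_nonneg_left h3 (hp b)
        simp only [h, if_true, true_and]
        refine h4.trans (le_of_eq ?_)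
        split_ifs <;> ring
      · simp [h]
    have h2 : ∑ b, (if Far D b w then p b * (pA - pN + (F b - G b)) else 0)
        = P * (pA - pN) + ∑ b, (if Far D b w then p b * (F b - G b) else 0) := by
      rw [hP, sum_mul, ← sum_add_distrib]
      refine sum_congr rfl fun b _ => ?_
      split_ifs <;> ring
    rw [h2, hsum, add_zero, sum_sub_distrib, ← sum_mul, ← sum_mul] at h1
    linarith
  have hX0 : 0 ≤ X := sum_nonneg fun b _ => by split_ifs <;> linarith [hp b]
  have hYP : Y ≤ P := by
    rw [hY, hP]
    refine sum_le_sum fun b _ => ?_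
    by_cases h : Far D b w
    · simp only [h, true_and, if_true]
      split_ifs <;> linarith [hp b]
    · simp [h]
  by_contra hcon
  push Not at hcon
  have h1 : X < Y := by linarith
  have h2 : 0 < P := by linarith
  have h3 : 0 < P * (pA - pN) := mul_pos h2 (by linarith)
  nlinarith [hp w, mul_nonneg (hp w) (by linarith : 0 ≤ Y - X)]

/-- The distribution version. -/
theorem one_sided_dist {V : Type} [Fintype V] [Nonempty V] (D : V → V → Prop)
    (hD : ∀ x y, D x y → ¬ D y x)
    (hT : ∀ a b, a ≠ b → ¬ D a b → ¬ D b a →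
      (∀ w, D a w → D b w ∨ ∃ x, D b x ∧ D x w) ∨ (∀ w, D b w → D a w ∨ ∃ x, D a x ∧ D x w)) :
    ∃ p : V → ℝ, (∀ v, 0 ≤ p v) ∧ ∑ v, p v = 1 ∧
      ∀ w, wt p {v | w ∈ N1 D v} ≤ wt p {v | w ∈ N2 D v} := by
  classical
  set E : V → V → Prop := fun a b => D a b ∨
    (a ≠ b ∧ ¬ D a b ∧ ¬ D b a ∧ ∃ w, D a w ∧ Far D b w) with hEd
  have hE : ∀ x y, E x y → ¬ E y x := by
    rintro x y (h | ⟨h1, h2, h3, w, hw1, hw2⟩) (h' | ⟨h1', h2', h3', w', hw1', hw2'⟩)
    · exact hD _ _ h h'
    · exact h3' h
    · exact h3 h'
    · rcases hT x y h1 h2 h3 with h4 | h4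
      · rcases h4 w hw1 with h5 | h5
        · exact hw2.2.1 h5
        · exact hw2.2.2 h5
      · rcases h4 w' hw1' with h5 | h5
        · exact hw2'.2.1 h5
        · exact hw2'.2.2 h5
  obtain ⟨p, h0, h1, h2⟩ := exists_losing E
  refine ⟨p, h0, h1, fun w => ?_⟩
  have h := dom_step D E (fun x y h => Or.inl h) hE (fun a b w haw hbw => by
    by_cases hab : D a b
    · exact Or.inl hab
    · refine Or.inr ⟨fun h => hbw.2.1 (h ▸ haw), hab, fun h => hbw.2.2 ⟨a, h, haw⟩, w, haw, hbw⟩)
    p h0 h2 w
  have e1 : ({v | w ∈ N1 D v} : Set V) = {u | D u w} := rfl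
  have e2 : ({v | w ∈ N2 D v} : Set V) = {u | u ≠ w ∧ ¬ D u w ∧ ∃ x, D u x ∧ D x w} := by
    ext u
    simp only [N2, Set.mem_ofPred_eq, ne_comm]
  rw [e1, e2]
  exact h

/-- The counting version. -/
theorem of_dist {V : Type} [Fintype V] (D : V → V → Prop) (p : V → ℝ) (h0 : ∀ v, 0 ≤ p v)
    (h1 : ∑ v, p v = 1) (h2 : ∀ w, wt p {v | w ∈ N1 D v} ≤ wt p {v | w ∈ N2 D v}) :
    ∃ v, (N1 D v).ncard ≤ (N2 D v).ncard := by
  classical
  by_contra hcon
  push Not at hcon
  have e : ∀ N : V → Set V, ∑ w, wt p {v | w ∈ N v} = ∑ v, p v * (N v).ncard := by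
    intro N
    unfold wt
    rw [sum_comm]
    refine sum_congr rfl fun v _ => ?_
    exact sum_ite_ncard (fun w => w ∈ N v) (p v)
  have h3 := sum_le_sum fun w (_ : w ∈ (univ : Finset V)) => h2 w
  rw [e, e] at h3
  have h4 : ∑ v, p v * ((N2 D v).ncard + 1 : ℝ) ≤ ∑ v, p v * (N1 D v).ncard := by
    refine sum_le_sum fun v _ => mul_le_mul_of_nonneg_left ?_ (h0 v)
    exact_mod_cast hcon v
  simp only [mul_add, mul_one, sum_add_distrib, h1] at h4
  linarith

end Vale.Agent.P038
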