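import Vale.Agent.P038.Defs

/-! P038: Eulerian oriented graphs with few non-neighbours.

`out v`, `inn v`, `non v`, `sec v`, `far v` are finsets: out-neighbours, in-neighbours,
non-neighbours, vertices at distance two, vertices at distance at least three from `v`. -/

namespace Vale.Agent.P038.Euler

open Finset

variable {V : Type} [Fintype V]

open Classical in
noncomputable def out (D : V → V → Prop) (v : V) : Finset V := univ.filter fun u => D v u
open Classical in
noncomputable def inn (D : V → V → Prop) (v : V) : Finset V := univ.filter fun u => D u v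
open Classical in
noncomputable def non (D : V → V → Prop) (v : V) : Finset V :=
  univ.filter fun u => u ≠ v ∧ ¬ D u v ∧ ¬ D v u
open Classical in
noncomputable def sec (D : V → V → Prop) (v : V) : Finset V :=
  univ.filter fun u => u ≠ v ∧ ¬ D v u ∧ ∃ x, D v x ∧ D x u
open Classical in
noncomputable def far (D : V → V → Prop) (v : V) : Finset V :=
  univ.filter fun u => u ≠ v ∧ ¬ D v u ∧ ¬ ∃ x, D v x ∧ D x u

theorem mem_out {D : V → V → Prop} {v u : V} : u ∈ out D v ↔ D v u := by simp [out]
theorem mem_inn {D : V → V → Prop} {v u : V} : u ∈ inn D v ↔ D u v := by simp [inn]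
theorem mem_non {D : V → V → Prop} {v u : V} :
    u ∈ non D v ↔ u ≠ v ∧ ¬ D u v ∧ ¬ D v u := by simp [non]
theorem mem_sec {D : V → V → Prop} {v u : V} :
    u ∈ sec D v ↔ u ≠ v ∧ ¬ D v u ∧ ∃ x, D v x ∧ D x u := by simp [sec]
theorem mem_far {D : V → V → Prop} {v u : V} :
    u ∈ far D v ↔ u ≠ v ∧ ¬ D v u ∧ ¬ ∃ x, D v x ∧ D x u := by simp [far]

omit [Fintype V] in
theorem self_out {D : V → V → Prop} (hD : ∀ x y, D x y → ¬ D y x) (v : V) : ¬ D v v :=
  fun h => hD v v h h

/-- `V = {v} ∪ out v ∪ sec v ∪ far v`. -/
theorem card_far (D : V → V → Prop) (hD : ∀ x y, D x y → ¬ D y x) (v : V) :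
    Fintype.card V = 1 + (out D v).card + (sec D v).card + (far D v).card := by
  classical
  have h1 : (univ : Finset V) = {v} ∪ out D v ∪ sec D v ∪ far D v := by
    ext u
    simp only [mem_univ, mem_union, mem_singleton, mem_out, mem_sec, mem_far, true_iff]
    generalize (∃ x, D v x ∧ D x u) = q
    tauto
  have d1 : Disjoint ({v} : Finset V) (out D v) := by
    rw [disjoint_singleton_left, mem_out]; exact self_out hD v
  have d2 : Disjoint ({v} ∪ out D v) (sec D v) := by
    rw [disjoint_left]
    intro u hu hu'
    rw [mem_sec] at hu'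
    rw [mem_union, mem_singleton, mem_out] at hu
    tauto
  have d3 : Disjoint ({v} ∪ out D v ∪ sec D v) (far D v) := by
    rw [disjoint_left]
    intro u hu hu'
    rw [mem_far] at hu'
    rw [mem_union, mem_union, mem_singleton, mem_out, mem_sec] at hu
    revert hu hu'
    generalize (∃ x, D v x ∧ D x u) = q
    tauto
  rw [← card_univ, h1, card_union_of_disjoint d3, card_union_of_disjoint d2,
    card_union_of_disjoint d1, card_singleton]

/-- `V = {v} ∪ out v ∪ inn v ∪ non v`. -/
theorem card_non (D : V → V → Prop) (hD : ∀ x y, D x y → ¬ D y x) (v : V) :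
    Fintype.card V = 1 + (out D v).card + (inn D v).card + (non D v).card := by
  classical
  have h1 : (univ : Finset V) = {v} ∪ out D v ∪ inn D v ∪ non D v := by
    ext u
    simp only [mem_univ, mem_union, mem_singleton, mem_out, mem_inn, mem_non, true_iff]
    tauto
  have d1 : Disjoint ({v} : Finset V) (out D v) := by
    rw [disjoint_singleton_left, mem_out]; exact self_out hD v
  have d2 : Disjoint ({v} ∪ out D v) (inn D v) := by
    rw [disjoint_left]
    intro u hu hu'
    rw [mem_inn] at hu'
    rw [mem_union, mem_singleton, mem_out] at hu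
    rcases hu with rfl | hu
    · exact self_out hD _ hu'
    · exact hD _ _ hu hu'
  have d3 : Disjoint ({v} ∪ out D v ∪ inn D v) (non D v) := by
    rw [disjoint_left]
    intro u hu hu'
    rw [mem_non] at hu'
    rw [mem_union, mem_union, mem_singleton, mem_out, mem_inn] at hu
    tauto
  rw [← card_univ, h1, card_union_of_disjoint d3, card_union_of_disjoint d2,
    card_union_of_disjoint d1, card_singleton]

open Classical in
/-- The in-neighbours of `c ∈ far v` lie in `sec v ∪ far v`. -/
theorem inn_le (D : V → V → Prop) (v c : V) (hc : c ∈ far D v) :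
    (inn D c).card ≤ (sec D v).card + (inn D c ∩ far D v).card := by
  have h : inn D c ⊆ sec D v ∪ (inn D c ∩ far D v) := by
    intro u hu
    rw [mem_far] at hc
    rw [mem_inn] at hu
    have h1 : u ≠ v := fun h => hc.2.1 (h ▸ hu)
    have h2 : ¬ D v u := fun h => hc.2.2 ⟨u, h, hu⟩
    simp only [mem_union, mem_inter, mem_sec, mem_far, mem_inn]
    clear hc
    generalize (∃ x, D v x ∧ D x u) = q
    tauto
  exact (card_le_card h).trans (card_union_le _ _)

open Classical in
/-- `2 e(F) ≤ |F| (|F| - 1)`. -/
theorem edges_le (D : V → V → Prop) (hD : ∀ x y, D x y → ¬ D y x) (F : Finset V) :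
    2 * ∑ c ∈ F, (inn D c ∩ F).card + F.card ≤ F.card * F.card := by
  have h1 : ∑ c ∈ F, (inn D c ∩ F).card = ∑ c ∈ F, (out D c ∩ F).card := by
    have e1 : ∀ c, (inn D c ∩ F).card = ∑ u ∈ F, if D u c then 1 else 0 := by
      intro c
      rw [← card_filter]
      congr 1
      ext u
      simp [mem_inn, and_comm]
    have e2 : ∀ c, (out D c ∩ F).card = ∑ u ∈ F, if D c u then 1 else 0 := by
      intro c
      rw [← card_filter]
      congr 1
      ext u
      simp [mem_out, and_comm]
    simp only [e1, e2]
    exact sum_comm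
  have h2 : ∀ c ∈ F, (inn D c ∩ F).card + (out D c ∩ F).card + 1 ≤ F.card := by
    intro c hc
    have d1 : Disjoint (inn D c ∩ F) (out D c ∩ F) := by
      rw [disjoint_left]
      intro u hu hu'
      rw [mem_inter, mem_inn] at hu
      rw [mem_inter, mem_out] at hu'
      exact hD _ _ hu.1 hu'.1
    have h3 : (inn D c ∩ F) ∪ (out D c ∩ F) ⊆ F.erase c := by
      intro u hu
      rw [mem_union, mem_inter, mem_inter, mem_inn, mem_out] at hu
      rw [mem_erase]
      refine ⟨?_, by tauto⟩
      rintro rfl
      exact self_out hD u (by tauto)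
    have h4 := card_le_card h3
    rw [card_union_of_disjoint d1, card_erase_of_mem hc] at h4
    have : 0 < F.card := card_pos.2 ⟨c, hc⟩
    omega
  have h5 := sum_le_sum h2
  rw [sum_add_distrib, sum_add_distrib, ← h1, sum_const, sum_const, smul_eq_mul, smul_eq_mul,
    mul_one] at h5
  omega

open Classical in
/-- A vertex of `F` of small indegree in `F`. -/
theorem exists_small (D : V → V → Prop) (hD : ∀ x y, D x y → ¬ D y x) (F : Finset V)
    (hF : F.Nonempty) : ∃ c ∈ F, 2 * (inn D c ∩ F).card + 1 ≤ F.card := by
  by_contra hcon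
  push Not at hcon
  have h1 := edges_le D hD F
  have h2 : ∀ c ∈ F, F.card ≤ 2 * (inn D c ∩ F).card := fun c hc => by
    have := hcon c hc
    omega
  have h3 := sum_le_sum h2
  rw [sum_const, smul_eq_mul, ← mul_sum] at h3
  have h4 : 0 < F.card := card_pos.2 hF
  omega

/-- The key inequality. -/
theorem key (D : V → V → Prop) (hD : ∀ x y, D x y → ¬ D y x)
    (hE : ∀ v, (out D v).card = (inn D v).card) (v : V) (hv : (far D v).Nonempty) :
    ∃ c ∈ far D v, (out D v).card + 1 ≤ (sec D v).card + (non D c).card := by
  classical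
  obtain ⟨c, hc, h⟩ := exists_small D hD _ hv
  refine ⟨c, hc, ?_⟩
  have h1 := card_far D hD v
  have h2 := card_non D hD c
  have h3 := inn_le D v c hc
  have h4 := hE c
  omega

/-- At most `k` non-neighbours: all deficits are at most `k - 1`. -/
theorem deficit (D : V → V → Prop) (hD : ∀ x y, D x y → ¬ D y x)
    (hE : ∀ v, (out D v).card = (inn D v).card) (k : ℕ) (hk : ∀ v, (non D v).card ≤ k) (v : V) :
    (out D v).card ≤ (sec D v).card + (k - 1) := by
  by_cases hv : (far D v).Nonempty
  · obtain ⟨c, hc, h⟩ := key D hD hE v hv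
    have := hk c
    omega
  · rw [not_nonempty_iff_eq_empty] at hv
    have h1 := card_far D hD v
    have h2 := card_non D hD v
    rw [hv, card_empty] at h1
    have := hE v
    omega

open Classical in
/-- If for every `c ∈ far v` at most `K ≥ 1` out-neighbours of `v` are non-adjacent to `c`, then the
deficit of `v` is at most `K - 1`. -/
theorem deficit' (D : V → V → Prop) (hD : ∀ x y, D x y → ¬ D y x)
    (hE : ∀ v, (out D v).card = (inn D v).card) (K : ℕ) (hK : 1 ≤ K) (v : V)
    (hk : ∀ c ∈ far D v, ((out D v).filter fun u => ¬ D u c ∧ ¬ D c u).card ≤ K) :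
    (out D v).card ≤ (sec D v).card + (K - 1) := by
  by_contra hcon
  push Not at hcon
  have hcon' : (sec D v).card + K ≤ (out D v).card := by omega
  have h1 := card_far D hD v
  have h2 := card_non D hD v
  have h3 := hE v
  -- the inequality at c
  have hc : ∀ c ∈ far D v, (out D v).card + (if D c v then 1 else 0) + (out D c ∩ far D v).card
      ≤ (sec D v).card + K + (inn D c ∩ far D v).card := by
    intro c hc
    have a1 := inn_le D v c hc
    have a2 := hk c hc
    have a3 := hE c
    have hcf := mem_far.1 hc
    have d1 : Disjoint ((out D v).filter fun u => D c u) (out D c ∩ far D v) := by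
      rw [disjoint_left]
      intro u hu hu'
      rw [mem_filter, mem_out] at hu
      rw [mem_inter, mem_far] at hu'
      exact hu'.2.2.1 hu.1
    have a4 : (((out D v).filter fun u => D c u) ∪ (out D c ∩ far D v)).card
        + (if D c v then 1 else 0) ≤ (out D c).card := by
      by_cases hcv : D c v
      · rw [if_pos hcv, ← card_insert_of_notMem (a := v)]
        · refine card_le_card fun u hu => ?_
          rw [mem_insert, mem_union, mem_filter, mem_inter] at hu
          rw [mem_out]
          rcases hu with rfl | hu | hu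
          · exact hcv
          · exact hu.2
          · exact mem_out.1 hu.1
        · rw [mem_union, mem_filter, mem_inter, mem_out, mem_far]
          rintro (h | h)
          · exact self_out hD v h.1
          · exact h.2.1 rfl
      · rw [if_neg hcv, add_zero]
        refine card_le_card fun u hu => ?_
        rw [mem_union, mem_filter, mem_inter] at hu
        rw [mem_out]
        rcases hu with hu | hu
        · exact hu.2
        · exact mem_out.1 hu.1
    rw [card_union_of_disjoint d1] at a4
    have a5 : (out D v).card = ((out D v).filter fun u => D c u).card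
        + ((out D v).filter fun u => ¬ D u c ∧ ¬ D c u).card := by
      rw [← card_filter_add_card_filter_not (s := out D v) (fun u => D c u)]
      congr 2
      ext u
      rw [mem_filter, mem_filter, mem_out]
      constructor
      · rintro ⟨h, h'⟩
        exact ⟨h, fun h'' => hcf.2.2 ⟨u, h, h''⟩, h'⟩
      · rintro ⟨h, -, h'⟩
        exact ⟨h, h'⟩
    omega
  have hsum := sum_le_sum hc
  have hio : ∑ c ∈ far D v, (inn D c ∩ far D v).card
      = ∑ c ∈ far D v, (out D c ∩ far D v).card := by
    have e1 : ∀ c, (inn D c ∩ far D v).card = ∑ u ∈ far D v, if D u c then 1 else 0 := by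
      intro c
      rw [← card_filter]
      congr 1
      ext u
      simp [mem_inn, and_comm]
    have e2 : ∀ c, (out D c ∩ far D v).card = ∑ u ∈ far D v, if D c u then 1 else 0 := by
      intro c
      rw [← card_filter]
      congr 1
      ext u
      simp [mem_out, and_comm]
    simp only [e1, e2]
    exact sum_comm
  rw [sum_add_distrib, sum_add_distrib, sum_add_distrib, hio, sum_const, sum_const,
    smul_eq_mul, smul_eq_mul] at hsum
  have h4 : (far D v).card * ((sec D v).card + K) ≤ (far D v).card * (out D v).card :=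
    Nat.mul_le_mul_left _ hcon'
  have h5 : ∑ c ∈ far D v, (if D c v then 1 else 0) = 0 := by omega
  have h6 : far D v ⊆ non D v := by
    intro c hc'
    have h7 := (sum_eq_zero_iff.1 h5) c hc'
    have hcf := mem_far.1 hc'
    rw [mem_non]
    refine ⟨hcf.1, fun h => ?_, hcf.2.1⟩
    rw [if_pos h] at h7
    exact one_ne_zero h7
  have h8 := card_le_card h6
  omega

/-- The reversed relation. -/
def rev (D : V → V → Prop) : V → V → Prop := fun x y => D y x

theorem out_rev (D : V → V → Prop) (v : V) : out (rev D) v = inn D v := rfl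
theorem inn_rev (D : V → V → Prop) (v : V) : inn (rev D) v = out D v := rfl
theorem non_rev (D : V → V → Prop) (v : V) : non (rev D) v = non D v := by
  ext u
  simp only [mem_non, rev]
  tauto
theorem far_rev (D : V → V → Prop) (v w : V) : w ∈ far D v ↔ v ∈ far (rev D) w := by
  simp only [mem_far, rev]
  constructor
  · rintro ⟨h1, h2, h3⟩
    exact ⟨h1.symm, h2, fun ⟨x, hx1, hx2⟩ => h3 ⟨x, hx2, hx1⟩⟩
  · rintro ⟨h1, h2, h3⟩
    exact ⟨h1.symm, h2, fun ⟨x, hx1, hx2⟩ => h3 ⟨x, hx2, hx1⟩⟩

theorem sum_sec_rev (D : V → V → Prop) :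
    ∑ v, (sec (rev D) v).card = ∑ v, (sec D v).card := by
  classical
  have e1 : ∀ v, (sec (rev D) v).card
      = ∑ u, if (u ≠ v ∧ ¬ D u v ∧ ∃ x, D x v ∧ D u x) then 1 else 0 := fun v => by
    rw [← card_filter]; rfl
  have e2 : ∀ v, (sec D v).card
      = ∑ u, if (u ≠ v ∧ ¬ D v u ∧ ∃ x, D v x ∧ D x u) then 1 else 0 := fun v => by
    rw [← card_filter]; rfl
  simp only [e1, e2]
  rw [sum_comm]
  refine sum_congr rfl fun v _ => sum_congr rfl fun w _ => ?_
  refine if_congr ?_ rfl rfl
  constructor
  · rintro ⟨h1, h2, x, hx1, hx2⟩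
    exact ⟨h1.symm, h2, x, hx2, hx1⟩
  · rintro ⟨h1, h2, x, hx1, hx2⟩
    exact ⟨h1.symm, h2, x, hx2, hx1⟩

/-- If all deficits are one and all non-degrees at most two, then vertices of `far v` have
non-degree two. -/
theorem non_far (D : V → V → Prop) (hD : ∀ x y, D x y → ¬ D y x)
    (hE : ∀ v, (out D v).card = (inn D v).card) (hk : ∀ v, (non D v).card ≤ 2)
    (h1 : ∀ v, (out D v).card = (sec D v).card + 1) (v c : V) (hc : c ∈ far D v) :
    (non D c).card = 2 := by
  classical
  have hF := card_far D hD v
  have hN := card_non D hD v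
  have hEv := hE v
  have hdv := h1 v
  have hkv := hk v
  -- every b in far v
  have hb : ∀ b ∈ far D v, (non D v).card + 2 ≤ (non D b).card + 2 * (inn D b ∩ far D v).card := by
    intro b hb
    have a1 := inn_le D v b hb
    have a2 := card_non D hD b
    have a3 := hE b
    omega
  have hpar : ∀ b, 2 * (out D b).card + (non D b).card
      = 2 * (out D v).card + (non D v).card := by
    intro b
    have a2 := card_non D hD b
    have a3 := hE b
    omega
  by_contra hne
  have hc0 : (non D c).card = 0 ∨ (non D c).card = 1 := by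
    have := hk c
    omega
  have hcb := hb c hc
  have hfc : (far D v).card = (non D v).card + 1 := by omega
  have hsum := edges_le D hD (far D v)
  have hsplit : ∑ b ∈ far D v, (inn D b ∩ far D v).card
      = (inn D c ∩ far D v).card + ∑ b ∈ (far D v).erase c, (inn D b ∩ far D v).card :=
    (add_sum_erase _ _ hc).symm
  have hrest : ((far D v).erase c).card * (non D v).card ≤
      2 * ∑ b ∈ (far D v).erase c, (inn D b ∩ far D v).card := by
    rw [mul_sum, ← smul_eq_mul, ← sum_const]
    refine sum_le_sum fun b hb' => ?_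
    have := hb b (mem_of_mem_erase hb')
    have := hk b
    omega
  rw [card_erase_of_mem hc, hfc] at hrest
  rw [hfc, hsplit] at hsum
  have hpc := hpar c
  have h3 : (non D v).card = 0 ∨ (non D v).card = 1 ∨ (non D v).card = 2 := by omega
  rcases h3 with h3 | h3 | h3 <;> rw [h3] at hsum hrest hcb hpc <;> omega

/-- Eulerian oriented graphs with at most two non-neighbours per vertex. -/
theorem euler_two [Nonempty V] (D : V → V → Prop) (hD : ∀ x y, D x y → ¬ D y x)
    (hE : ∀ v, (out D v).card = (inn D v).card) (hk : ∀ v, (non D v).card ≤ 2) :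
    ∃ v, (out D v).card ≤ (sec D v).card := by
  classical
  by_contra hcon
  push Not at hcon
  have hD' : ∀ x y, rev D x y → ¬ rev D y x := fun x y h h' => hD _ _ h h'
  have hE' : ∀ v, (out (rev D) v).card = (inn (rev D) v).card := fun v => (hE v).symm
  have hk' : ∀ v, (non (rev D) v).card ≤ 2 := fun v => by rw [non_rev]; exact hk v
  have h1 : ∀ v, (out D v).card = (sec D v).card + 1 := fun v => by
    have := hcon v
    have := deficit D hD hE 2 hk v
    omega
  have h1' : ∀ v, (out (rev D) v).card = (sec (rev D) v).card + 1 := by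
    have hle : ∀ v, (out (rev D) v).card ≤ (sec (rev D) v).card + 1 := fun v =>
      deficit (rev D) hD' hE' 2 hk' v
    have hs : ∑ v, (out (rev D) v).card = ∑ v, ((sec (rev D) v).card + 1) := by
      rw [sum_add_distrib, sum_sec_rev, ← sum_add_distrib]
      refine sum_congr rfl fun v _ => ?_
      rw [← h1 v, hE v, out_rev]
    intro v
    exact (sum_eq_sum_iff_of_le fun v _ => hle v).1 hs v (mem_univ v)
  -- far sets are nonempty
  have hne : ∀ (E : V → V → Prop) (_ : ∀ x y, E x y → ¬ E y x)
      (_ : ∀ v, (out E v).card = (inn E v).card)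
      (_ : ∀ v, (out E v).card = (sec E v).card + 1) (v : V), (far E v).Nonempty := by
    intro E hE1 hE2 hE3 v
    rw [← card_pos]
    have a1 := card_far E hE1 v
    have a2 := card_non E hE1 v
    have a3 := hE2 v
    have a4 := hE3 v
    omega
  have h2 : ∀ v, (non D v).card = 2 := by
    intro v
    obtain ⟨w, hw⟩ := hne (rev D) hD' hE' h1' v
    have : v ∈ far D w := (far_rev D w v).2 hw
    exact non_far D hD hE hk h1 w v this
  have h2' : ∀ v, (non (rev D) v).card = 2 := fun v => by rw [non_rev]; exact h2 v
  -- structure of far sets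
  have hst : ∀ (E : V → V → Prop) (_ : ∀ x y, E x y → ¬ E y x)
      (_ : ∀ v, (out E v).card = (inn E v).card)
      (_ : ∀ v, (out E v).card = (sec E v).card + 1) (_ : ∀ v, (non E v).card = 2) (v c : V),
      c ∈ far E v → ∃ y z, y ∈ far E v ∧ z ∈ far E v ∧ E y c ∧ E z y ∧ E c z := by
    intro E hE1 hE2 hE3 hE4 v c hc
    have hin : ∀ b ∈ far E v, ∃ y ∈ far E v, E y b := by
      intro b hb
      have a1 := inn_le E v b hb
      have a2 := card_non E hE1 b
      have a3 := card_non E hE1 v
      have a4 := hE2 b
      have a5 := hE2 v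
      have a6 := hE3 v
      have a7 := hE4 b
      have a8 := hE4 v
      have a9 : 0 < (inn E b ∩ far E v).card := by omega
      obtain ⟨y, hy⟩ := card_pos.1 a9
      rw [mem_inter, mem_inn] at hy
      exact ⟨y, hy.2, hy.1⟩
    have hcard : (far E v).card = 3 := by
      have a1 := card_far E hE1 v
      have a2 := card_non E hE1 v
      have a3 := hE2 v
      have a4 := hE3 v
      have a5 := hE4 v
      omega
    obtain ⟨y, hy, hyc⟩ := hin c hc
    obtain ⟨z, hz, hzy⟩ := hin y hy
    obtain ⟨t, ht, htz⟩ := hin z hz
    have n1 : y ≠ c := fun h => self_out hE1 c (h ▸ hyc)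
    have n2 : z ≠ y := fun h => self_out hE1 y (h ▸ hzy)
    have n3 : z ≠ c := fun h => hE1 _ _ hyc (h ▸ hzy)
    have htc : t = c := by
      by_contra h
      have n4 : t ≠ z := fun h' => self_out hE1 z (h' ▸ htz)
      have n5 : t ≠ y := fun h' => hE1 _ _ hzy (h' ▸ htz)
      have hsub : ({t, z, y, c} : Finset V) ⊆ far E v := by
        intro u hu
        simp only [mem_insert, mem_singleton] at hu
        rcases hu with rfl | rfl | rfl | rfl <;> assumption
      have := card_le_card hsub
      rw [card_insert_of_notMem (by simp [n4, n5, h]), card_insert_of_notMem (by simp [n2, n3]),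
        card_insert_of_notMem (by simp [n1]), card_singleton] at this
      omega
    exact ⟨y, z, hy, hz, hyc, hzy, htc ▸ htz⟩
  obtain ⟨b⟩ := (inferInstance : Nonempty V)
  obtain ⟨w, hw⟩ := hne D hD hE h1 b
  have hb : b ∈ far (rev D) w := (far_rev D b w).1 hw
  obtain ⟨y, z, hy, hz, hyw, hzy, hwz⟩ := hst D hD hE h1 h2 b w hw
  obtain ⟨y', z', hy', hz', hyb, hzy', hbz⟩ := hst (rev D) hD' hE' h1' h2' w b hb
  -- z and z' both outside everything
  have hzb := mem_far.1 hz
  have hzw := mem_far.1 hz'
  have hwb := mem_far.1 hw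
  have hzz : z = z' := by
    by_contra hne'
    -- {b, w, z, z'} ∪ out b ∪ inn w
    have c1 := card_non D hD b
    have c2 := card_non D hD w
    have c3 := hE b
    have c4 := hE w
    have c5 := h2 b
    have c6 := h2 w
    have d1 : Disjoint (out D b) (inn D w) := by
      rw [disjoint_left]
      intro u hu hu'
      rw [mem_out] at hu
      rw [mem_inn] at hu'
      exact hwb.2.2 ⟨u, hu, hu'⟩
    have hzw1 : ¬ D z w := hD _ _ hwz
    have hzb1 : ¬ D b z' := hD _ _ hbz
    have hzw2 : ¬ D z' w := hzw.2.1
    have d2 : Disjoint (out D b ∪ inn D w) {b, w, z, z'} := by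
      rw [disjoint_left]
      intro u hu hu'
      rw [mem_union, mem_out, mem_inn] at hu
      simp only [mem_insert, mem_singleton] at hu'
      rcases hu' with rfl | rfl | rfl | rfl
      · rcases hu with hu | hu
        · exact self_out hD _ hu
        · exact hwb.2.1 hu
      · rcases hu with hu | hu
        · exact hwb.2.1 hu
        · exact self_out hD _ hu
      · rcases hu with hu | hu
        · exact hzb.2.1 hu
        · exact hzw1 hu
      · rcases hu with hu | hu
        · exact hzb1 hu
        · exact hzw2 hu
    have n1 : w ≠ z := fun h => self_out hD z (h ▸ hwz)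
    have n2 : b ≠ z' := fun h => self_out hD z' (h ▸ hbz)
    have e1 := card_le_univ (out D b ∪ inn D w ∪ {b, w, z, z'})
    rw [card_union_of_disjoint d2, card_union_of_disjoint d1,
      card_insert_of_notMem (by simp [Ne.symm hwb.1, Ne.symm hzb.1, n2]),
      card_insert_of_notMem (by simp [n1, Ne.symm hzw.1]),
      card_insert_of_notMem (by simpa using hne'), card_singleton] at e1
    omega
  subst hzz
  exact hzb.2.2 ⟨y', hyb, hzy'⟩

end Vale.Agent.P038.Euler
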