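import Vale.Agent.P038.Regular

/-! P038: Eulerian oriented graphs with at most `k` non-neighbours per vertex. -/

namespace Vale.Agent.P038.Euler

open Finset

theorem G_pos (k a u : ℤ) (hu0 : 0 ≤ u) (hu : u ≤ k) (ha : 1 ≤ a) (hak : 3 * k < 5 * a + 5)
    (hpar : u % 2 = 0) :
    0 < 2 * (k + a) * (5 * a + 5 - 3 * k) + 2 * u * (4 * k - 4 * a - 5) - 3 * u ^ 2 := by
  have hk0 : 0 ≤ k := hu0.trans hu
  by_cases h3 : k = 3 ∧ a = 1
  · obtain ⟨rfl, rfl⟩ := h3
    interval_cases u <;> omega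
  · have hG0 : 0 < 2 * (k + a) * (5 * a + 5 - 3 * k) :=
      mul_pos (by linarith) (by linarith)
    have hGk : 0 < 2 * (k + a) * (5 * a + 5 - 3 * k) + 2 * k * (4 * k - 4 * a - 5) - 3 * k ^ 2 := by
      have h1 : 0 < k * (2 * a - k) + 2 * a := by
        by_cases h4 : k ≤ 4
        · interval_cases k
          · linarith
          · linarith
          · linarith
          · have : a ≠ 1 := fun h => h3 ⟨rfl, h⟩
            omega
          · omega
        · have h5 : 5 * a ≥ 3 * k - 4 := by linarith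
          nlinarith
      nlinarith [mul_nonneg (by linarith : (0 : ℤ) ≤ a) (by linarith : (0 : ℤ) ≤ 5 * a + 5 - 3 * k - 1)]
    rcases eq_or_lt_of_le hk0 with hk | hk
    · have : u = 0 := by omega
      subst this
      nlinarith
    · have hkey : k * (2 * (k + a) * (5 * a + 5 - 3 * k) + 2 * u * (4 * k - 4 * a - 5) - 3 * u ^ 2)
          = (k - u) * (2 * (k + a) * (5 * a + 5 - 3 * k))
          + u * (2 * (k + a) * (5 * a + 5 - 3 * k) + 2 * k * (4 * k - 4 * a - 5) - 3 * k ^ 2)
          + 3 * k * (u * (k - u)) := by ring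
      have hp : 0 < (k - u) * (2 * (k + a) * (5 * a + 5 - 3 * k))
          + u * (2 * (k + a) * (5 * a + 5 - 3 * k) + 2 * k * (4 * k - 4 * a - 5) - 3 * k ^ 2) := by
        rcases eq_or_lt_of_le hu0 with hu1 | hu1
        · rw [← hu1]
          simp only [sub_zero, zero_mul, add_zero]
          exact mul_pos hk hG0
        · have := mul_pos hu1 hGk
          have := mul_nonneg (sub_nonneg.2 hu) hG0.le
          linarith
      have hq : 0 ≤ 3 * k * (u * (k - u)) :=
        mul_nonneg (by linarith) (mul_nonneg hu0 (sub_nonneg.2 hu))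
      have : 0 < k * (2 * (k + a) * (5 * a + 5 - 3 * k) + 2 * u * (4 * k - 4 * a - 5)
          - 3 * u ^ 2) := by
        rw [hkey]; linarith
      exact (mul_pos_iff_of_pos_left hk).1 this

theorem Q_valid (k a m f g : ℤ) (hm0 : 0 ≤ m) (hm : m ≤ k) (ha : 1 ≤ a)
    (hak : 3 * k < 5 * a + 5) (hpar : (k - m) % 2 = 0) (hf : a ≤ f) :
    0 < (m + f) * (3 * f - m - 2 * k + 5) + 2 * m * g + 2 * g ^ 2
      + (2 * k + 4 * a) * (f - g) := by
  have h1 := G_pos k a (k - m) (by linarith) (by linarith) ha hak hpar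
  have h2 : 0 ≤ (f - a) * (20 * a + 4 * m + 10) :=
    mul_nonneg (by linarith) (by linarith)
  nlinarith [sq_nonneg (2 * g - (k + 2 * a - m)), sq_nonneg (f - a)]

theorem Q_invalid (k a m f g : ℤ) (hm0 : 0 ≤ m) (hm : m ≤ k) (ha : 1 ≤ a)
    (hak : 3 * k < 5 * a + 5) (hpar : (k - m) % 2 = 0) (hf : a ≤ f) (hi : 2 * f + m - k ≤ 0) :
    0 < - 2 * (m + f) * (m - 1) + 2 * m * g + 2 * g ^ 2 + (2 * k + 4 * a) * (f - g) := by
  have h1 : 0 < - 4 * (m + a) * (m - 1) + 4 * (k + 2 * a) * a - (k + 2 * a - m) ^ 2 := by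
    have hk9 : k ≤ 9 := by omega
    have hk0 : 0 ≤ k := by omega
    have ha4 : a ≤ 4 := by omega
    have hm9 : m ≤ 9 := by omega
    interval_cases a <;> interval_cases k <;> first | omega | (interval_cases m <;> omega)
  have h2 : 0 ≤ (f - a) * (4 * (k - m) + 8 * a + 4) :=
    mul_nonneg (by linarith) (by linarith)
  nlinarith [sq_nonneg (2 * g - (k + 2 * a - m))]

variable {V : Type} [Fintype V]

/-- Number of non-neighbours. -/
noncomputable def mm (D : V → V → Prop) (v : V) : ℤ := ((non D v).card : ℤ)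
/-- Deficit. -/
noncomputable def xx (D : V → V → Prop) (v : V) : ℤ := ((out D v).card : ℤ) - (sec D v).card
/-- Deficit of the reversed graph. -/
noncomputable def yy (D : V → V → Prop) (v : V) : ℤ :=
  ((out D v).card : ℤ) - (sec (rev D) v).card
/-- Lower bound for four times the sum of `sin`. -/
noncomputable def low (D : V → V → Prop) (k : ℤ) (v : V) : ℤ :=
  if 1 ≤ 2 * xx D v + mm D v - k then (mm D v + xx D v) * (3 * xx D v + mm D v - 2 * k + 3) else 0

theorem card_eq (D : V → V → Prop) (hD : ∀ x y, D x y → ¬ D y x)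
    (hE : ∀ v, (out D v).card = (inn D v).card) (v : V) :
    (Fintype.card V : ℤ) = 1 + 2 * (out D v).card + mm D v := by
  have h1 := card_non D hD v
  have h2 := hE v
  simp only [mm]
  omega

theorem far_eq (D : V → V → Prop) (hD : ∀ x y, D x y → ¬ D y x)
    (hE : ∀ v, (out D v).card = (inn D v).card) (v : V) :
    ((far D v).card : ℤ) = mm D v + xx D v := by
  have h1 := card_far D hD v
  have h2 := card_eq D hD hE v
  simp only [xx]
  omega

theorem far_eq' (D : V → V → Prop) (hD : ∀ x y, D x y → ¬ D y x)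
    (hE : ∀ v, (out D v).card = (inn D v).card) (v : V) :
    ((far (rev D) v).card : ℤ) = mm D v + yy D v := by
  have h1 := card_far (rev D) (fun x y h h' => hD _ _ h h') v
  have h2 := card_eq D hD hE v
  have h3 := hE v
  rw [out_rev] at h1
  simp only [yy]
  omega

theorem low_le (D : V → V → Prop) (hD : ∀ x y, D x y → ¬ D y x)
    (hE : ∀ v, (out D v).card = (inn D v).card) (k : ℕ) (hmk : ∀ v, mm D v ≤ k)
    (hpar : ∀ v, ((k : ℤ) - mm D v) % 2 = 0) (v : V) :
    low D k v ≤ 4 * ∑ c ∈ far D v, ((sin D v c).card : ℤ) := by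
  classical
  unfold low
  split_ifs with hval
  · obtain ⟨f0, hf0⟩ : ∃ f0 : ℕ, (2 * (f0 : ℤ)) = 2 * xx D v + mm D v - k := by
      refine ⟨((2 * xx D v + mm D v - k) / 2).toNat, ?_⟩
      have h1 := hpar v
      omega
    have h1 : ∀ b ∈ far D v, f0 ≤ (inn D b ∩ far D v).card := by
      intro b hb
      have h2 := inn_le D v b hb
      have h3 := hE b
      have h4 := card_eq D hD hE b
      have h5 := card_eq D hD hE v
      have h6 := hmk b
      have h7 : xx D v = ((out D v).card : ℤ) - (sec D v).card := rfl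
      omega
    have h2 : ∀ c ∈ far D v, (2 * xx D v + mm D v - k) + 1 ≤
        2 * ((sin D v c).card : ℤ) + ((inn D c ∩ far D v).card : ℤ) := by
      intro c hc
      have h3 := h1 c hc
      have h5 : 0 < (inn D c ∩ far D v).card := by omega
      have h6 := sin_lower D hD v c _ h1 (card_pos.1 h5)
      omega
    have h3 := sum_le_sum h2
    rw [sum_const, nsmul_eq_mul, sum_add_distrib, ← mul_sum] at h3
    have h4 := edges_le D hD (far D v)
    have h5 : 2 * ∑ c ∈ far D v, ((inn D c ∩ far D v).card : ℤ) + (far D v).card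
        ≤ ((far D v).card : ℤ) * (far D v).card := by exact_mod_cast h4
    rw [far_eq D hD hE v] at h3 h5
    nlinarith
  · positivity

theorem upp_le (D : V → V → Prop) (hD : ∀ x y, D x y → ¬ D y x)
    (hE : ∀ v, (out D v).card = (inn D v).card) (c : V) :
    2 * ∑ v ∈ far (rev D) c, ((sin D v c).card : ℤ)
      ≤ ∑ v ∈ far (rev D) c, (mm D v - 1) - (mm D c + yy D c) * yy D c := by
  classical
  have hD' : ∀ x y, rev D x y → ¬ rev D y x := fun x y h h' => hD _ _ h h'
  have h4' := far_eq' D hD hE c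
  have h2 : ∀ v ∈ far (rev D) c, 2 * ((sin D v c).card : ℤ) + (2 * yy D c + mm D c)
      ≤ 2 * ((out D v ∩ far (rev D) c).card : ℤ) + ((mm D v - 1) + 1) := by
    intro v hv
    have h3 := pack D hD v c ((far_rev D v c).2 hv)
    have h5 := card_eq D hD hE v
    have h6 := card_eq D hD hE c
    have h7 := hE c
    omega
  have h3 := sum_le_sum h2
  have e1 : ∑ v ∈ far (rev D) c, (2 * ((sin D v c).card : ℤ) + (2 * yy D c + mm D c))
      = 2 * ∑ v ∈ far (rev D) c, ((sin D v c).card : ℤ)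
        + (mm D c + yy D c) * (2 * yy D c + mm D c) := by
    rw [sum_add_distrib, ← mul_sum, sum_const, nsmul_eq_mul, h4']
  have e2 : ∑ v ∈ far (rev D) c, (2 * ((out D v ∩ far (rev D) c).card : ℤ) + ((mm D v - 1) + 1))
      = 2 * ∑ v ∈ far (rev D) c, ((out D v ∩ far (rev D) c).card : ℤ)
        + (∑ v ∈ far (rev D) c, (mm D v - 1) + (mm D c + yy D c)) := by
    rw [sum_add_distrib, ← mul_sum, sum_add_distrib (f := fun v => mm D v - 1), sum_const,
      nsmul_eq_mul, mul_one, h4']
  rw [e1, e2] at h3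
  have h4 := edges_le (rev D) hD' (far (rev D) c)
  simp only [inn_rev] at h4
  have h5 : 2 * ∑ v ∈ far (rev D) c, ((out D v ∩ far (rev D) c).card : ℤ)
      + (far (rev D) c).card
      ≤ ((far (rev D) c).card : ℤ) * (far (rev D) c).card := by exact_mod_cast h4
  rw [h4'] at h5
  nlinarith

theorem sum_le (D : V → V → Prop) (hD : ∀ x y, D x y → ¬ D y x)
    (hE : ∀ v, (out D v).card = (inn D v).card) (k : ℕ) (hmk : ∀ v, mm D v ≤ k)
    (hpar : ∀ v, ((k : ℤ) - mm D v) % 2 = 0) :
    ∑ v, low D k v ≤ 2 * (∑ v, (mm D v + xx D v) * (mm D v - 1)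
      - ∑ v, (mm D v + yy D v) * yy D v) := by
  have hdc : ∑ v, ∑ c ∈ far D v, ((sin D v c).card : ℤ)
      = ∑ c, ∑ v ∈ far (rev D) c, ((sin D v c).card : ℤ) := by
    refine sum_comm' fun v c => ?_
    rw [far_rev D v c]
    simp
  have hdc2 : ∑ c, ∑ v ∈ far (rev D) c, (mm D v - 1)
      = ∑ v, (mm D v + xx D v) * (mm D v - 1) := by
    have : ∑ c, ∑ v ∈ far (rev D) c, (mm D v - 1) = ∑ v, ∑ c ∈ far D v, (mm D v - 1) := by
      refine sum_comm' fun c v => ?_
      rw [far_rev D v c]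
      simp
    rw [this]
    refine sum_congr rfl fun v _ => ?_
    rw [sum_const, nsmul_eq_mul, far_eq D hD hE v]
  have e1 : ∑ v, low D k v ≤ ∑ v, 4 * ∑ c ∈ far D v, ((sin D v c).card : ℤ) :=
    sum_le_sum fun v _ => low_le D hD hE k hmk hpar v
  have e2 : ∑ c, 2 * ∑ v ∈ far (rev D) c, ((sin D v c).card : ℤ) ≤
      ∑ c, (∑ v ∈ far (rev D) c, (mm D v - 1) - (mm D c + yy D c) * yy D c) :=
    sum_le_sum fun c _ => upp_le D hD hE c
  rw [sum_sub_distrib, hdc2, ← mul_sum, ← hdc] at e2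
  rw [← mul_sum] at e1
  linarith

theorem eulerian_aux [Nonempty V] (D : V → V → Prop) (hD : ∀ x y, D x y → ¬ D y x)
    (hE : ∀ v, (out D v).card = (inn D v).card) (k : ℕ) (hk : ∀ v, (non D v).card ≤ k)
    (hk1 : ∃ v, (non D v).card = k) :
    ∃ v, 5 * (out D v).card ≤ 5 * (sec D v).card + (3 * k - 5) := by
  by_contra hcon
  push Not at hcon
  obtain ⟨v1, hv1⟩ := hk1
  have hm0 : ∀ v, 0 ≤ mm D v := fun v => by simp only [mm]; omega
  have hmk : ∀ v, mm D v ≤ k := fun v => by
    have := hk v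
    simp only [mm]; omega
  have hpar : ∀ v, ((k : ℤ) - mm D v) % 2 = 0 := fun v => by
    have h1 := card_eq D hD hE v
    have h2 := card_eq D hD hE v1
    simp only [mm] at h1 h2 ⊢
    omega
  obtain ⟨v0, -, hv0⟩ := exists_min_image univ (xx D) univ_nonempty
  obtain ⟨a, ha⟩ : ∃ a, a = xx D v0 := ⟨_, rfl⟩
  have ha1 : 1 ≤ a := by
    have := hcon v0
    simp only [ha, xx]
    omega
  have ha2 : 3 * (k : ℤ) < 5 * a + 5 := by
    have := hcon v0
    simp only [ha, xx]
    omega
  have hxa : ∀ v, a ≤ xx D v := fun v => ha ▸ hv0 v (mem_univ v)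
  have hxy : ∑ v, xx D v = ∑ v, yy D v := by
    simp only [xx, yy, sum_sub_distrib]
    have := sum_sec_rev D
    have h' : ∑ v, ((sec (rev D) v).card : ℤ) = ∑ v, ((sec D v).card : ℤ) := by exact_mod_cast this
    rw [h']
  have hs1 := sum_le D hD hE k hmk hpar
  have hs2 : 0 < ∑ v, (low D k v - 2 * ((mm D v + xx D v) * (mm D v - 1))
      + 2 * ((mm D v + yy D v) * yy D v) + (2 * k + 4 * a) * (xx D v - yy D v)) := by
    refine sum_pos (fun v _ => ?_) univ_nonempty
    unfold low
    split_ifs with hval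
    · have := Q_valid k a (mm D v) (xx D v) (yy D v) (hm0 v) (hmk v) ha1 ha2 (hpar v) (hxa v)
      linarith
    · have := Q_invalid k a (mm D v) (xx D v) (yy D v) (hm0 v) (hmk v) ha1 ha2 (hpar v) (hxa v)
        (by omega)
      linarith
  have hs3 : ∑ v, (low D k v - 2 * ((mm D v + xx D v) * (mm D v - 1))
      + 2 * ((mm D v + yy D v) * yy D v) + (2 * k + 4 * a) * (xx D v - yy D v))
      = ∑ v, low D k v - 2 * ∑ v, (mm D v + xx D v) * (mm D v - 1)
      + 2 * ∑ v, (mm D v + yy D v) * yy D v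
      + (2 * k + 4 * a) * (∑ v, xx D v - ∑ v, yy D v) := by
    rw [← sum_sub_distrib (f := xx D) (g := yy D), mul_sum (f := fun v => xx D v - yy D v),
      mul_sum, mul_sum, ← sum_sub_distrib, ← sum_add_distrib, ← sum_add_distrib]
  rw [hs3, hxy, sub_self, mul_zero, add_zero] at hs2
  linarith

/-- Eulerian oriented graphs with at most `k` non-neighbours per vertex. -/
theorem eulerian [Nonempty V] (D : V → V → Prop) (hD : ∀ x y, D x y → ¬ D y x)
    (hE : ∀ v, (out D v).card = (inn D v).card) (k : ℕ) (hk : ∀ v, (non D v).card ≤ k) :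
    ∃ v, 5 * (out D v).card ≤ 5 * (sec D v).card + (3 * k - 5) := by
  obtain ⟨v1, -, hv1⟩ := exists_max_image univ (fun v => (non D v).card) univ_nonempty
  obtain ⟨v, hv⟩ := eulerian_aux D hD hE (non D v1).card (fun v => hv1 v (mem_univ v)) ⟨v1, rfl⟩
  refine ⟨v, hv.trans ?_⟩
  have := hk v1
  omega

end Vale.Agent.P038.Euler
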