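import Vale.Agent.P038.Losing

/-! P038: every oriented graph has a losing density (Fisher; separation of convex sets). -/

namespace Vale.Agent.P038

open Finset

/-- Skew-symmetric games: there is a probability vector `p` with `A p ≥ 0`. -/
theorem exists_optimal {V : Type} [Fintype V] [Nonempty V] (a : V → V → ℝ)
    (ha : ∀ u v, a u v = - a v u) :
    ∃ p : V → ℝ, (∀ v, 0 ≤ p v) ∧ ∑ v, p v = 1 ∧ ∀ v, 0 ≤ ∑ u, a v u * p u := by
  classical
  by_contra hcon
  push Not at hcon
  let L : (V → ℝ) →ₗ[ℝ] (V → ℝ) :=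
    { toFun := fun p v => ∑ u, a v u * p u
      map_add' := fun p q => by
        ext v
        simp [mul_add, sum_add_distrib]
      map_smul' := fun c p => by
        ext v
        simp only [Pi.smul_apply, smul_eq_mul, RingHom.id_apply, mul_sum]
        exact sum_congr rfl fun u _ => by ring }
  have hLc : Continuous L := L.continuous_of_finiteDimensional
  have hS1 : Convex ℝ (L '' stdSimplex ℝ V) := (convex_stdSimplex ℝ V).linear_image L
  have hS2 : IsCompact (L '' stdSimplex ℝ V) := (isCompact_stdSimplex ℝ V).image hLc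
  have hK1 : Convex ℝ {x : V → ℝ | ∀ v, 0 ≤ x v} := by
    intro x hx y hy s t hs ht _ v
    simp only [Pi.add_apply, Pi.smul_apply, smul_eq_mul]
    exact add_nonneg (mul_nonneg hs (hx v)) (mul_nonneg ht (hy v))
  have hK2 : IsClosed {x : V → ℝ | ∀ v, 0 ≤ x v} := by
    have : {x : V → ℝ | ∀ v, 0 ≤ x v} = ⋂ v, {x : V → ℝ | 0 ≤ x v} := by
      ext x; simp
    rw [this]
    exact isClosed_iInter fun v => isClosed_le continuous_const (continuous_apply v)
  have hd : Disjoint (L '' stdSimplex ℝ V) {x : V → ℝ | ∀ v, 0 ≤ x v} := by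
    rw [Set.disjoint_left]
    rintro _ ⟨p, hp, rfl⟩ hx
    obtain ⟨v, hv⟩ := hcon p hp.1 hp.2
    exact absurd (hx v) (not_le.2 hv)
  obtain ⟨f, s, t, hfs, hst, hft⟩ := geometric_hahn_banach_compact_closed hS1 hS2 hK1 hK2 hd
  set y : V → ℝ := fun v => f (Pi.single v 1) with hy
  have hf : ∀ x : V → ℝ, f x = ∑ v, x v * y v := by
    intro x
    have h1 : x = ∑ v, x v • (Pi.single v (1 : ℝ) : V → ℝ) := by
      ext w
      rw [Finset.sum_apply]
      simp [Pi.single_apply]
    conv_lhs => rw [h1]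
    rw [map_sum]
    exact sum_congr rfl fun v _ => by rw [map_smul, smul_eq_mul]
  have ht0 : t < 0 := by
    have := hft 0 (fun v => le_refl _)
    rwa [map_zero] at this
  have hy0 : ∀ v, 0 ≤ y v := by
    intro v
    by_contra hneg
    push Not at hneg
    have h1 := hft ((t / y v) • (Pi.single v (1 : ℝ) : V → ℝ)) (fun w => by
      simp only [Pi.smul_apply, smul_eq_mul, Pi.single_apply]
      split_ifs
      · rw [mul_one]; exact (div_pos_of_neg_of_neg ht0 hneg).le
      · simp)
    rw [map_smul, smul_eq_mul] at h1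
    have h2 : t / y v * f (Pi.single v 1) = t := div_mul_cancel₀ t hneg.ne
    rw [h2] at h1
    exact lt_irrefl _ h1
  have hsum : 0 < ∑ v, y v := by
    rcases (sum_nonneg fun v (_ : v ∈ univ) => hy0 v).eq_or_lt with h0 | h0
    · exfalso
      have h1 : ∀ v, y v = 0 := fun v =>
        (sum_eq_zero_iff_of_nonneg fun v _ => hy0 v).1 h0.symm v (mem_univ v)
      obtain ⟨v0⟩ := (inferInstance : Nonempty V)
      have h2 := hfs (L (Pi.single v0 1)) ⟨_, single_mem_stdSimplex ℝ v0, rfl⟩
      rw [hf] at h2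
      simp only [h1, mul_zero, sum_const_zero] at h2
      linarith
    · exact h0
  set p : V → ℝ := fun v => (∑ v, y v)⁻¹ * y v with hp
  have hpm : p ∈ stdSimplex ℝ V := by
    refine ⟨fun v => mul_nonneg (inv_nonneg.2 hsum.le) (hy0 v), ?_⟩
    simp only [hp]
    rw [← mul_sum, inv_mul_cancel₀ hsum.ne']
  have h3 := hfs (L p) ⟨p, hpm, rfl⟩
  have h4 : f (L p) = (∑ v, y v) * ∑ v, ∑ u, p v * (a v u * p u) := by
    rw [hf, mul_sum]
    refine sum_congr rfl fun v _ => ?_
    have h5 : y v = (∑ v, y v) * p v := by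
      simp only [hp]
      rw [← mul_assoc, mul_inv_cancel₀ hsum.ne', one_mul]
    have h6 : L p v = ∑ u, a v u * p u := rfl
    rw [h6, ← mul_sum]
    conv_lhs => rw [h5]
    ring
  have h7 : ∑ v, ∑ u, p v * (a v u * p u) = 0 := by
    have h8 : ∑ v, ∑ u, p v * (a v u * p u) = - ∑ v, ∑ u, p v * (a v u * p u) := by
      conv_lhs => rw [sum_comm]
      rw [← sum_neg_distrib]
      refine sum_congr rfl fun v _ => ?_
      rw [← sum_neg_distrib]
      refine sum_congr rfl fun u _ => ?_
      rw [ha u v]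
      ring
    linarith
  rw [h4, h7, mul_zero] at h3
  linarith

/-- Every oriented graph has a losing density. -/
theorem exists_losing {V : Type} [Fintype V] [Nonempty V] (D : V → V → Prop) :
    ∃ p : V → ℝ, (∀ v, 0 ≤ p v) ∧ ∑ v, p v = 1 ∧
      ∀ v, wt p {u | D u v} ≤ wt p (N1 D v) := by
  classical
  obtain ⟨p, h0, h1, h2⟩ := exists_optimal
    (fun v u => (if D v u then (1 : ℝ) else 0) - (if D u v then 1 else 0))
    (fun u v => by ring)
  refine ⟨p, h0, h1, fun v => ?_⟩
  have h3 := h2 v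
  simp only [sub_mul, sum_sub_distrib, ite_mul, one_mul, zero_mul] at h3
  unfold wt
  simp only [N1, Set.mem_ofPred_eq]
  refine sub_nonneg.1 (le_of_le_of_eq h3 ?_)
  rfl

/-- If for distinct non-adjacent `a`, `b` every out-neighbour of `a` is at distance at most two
from `b`, then for a suitable random vertex `v` every vertex is at least as likely in `N2 v` as in
`N1 v`. -/
theorem domination_dist {V : Type} [Fintype V] [Nonempty V] (D : V → V → Prop)
    (hD : ∀ x y, D x y → ¬ D y x)
    (hT : ∀ a b, a ≠ b → ¬ D a b → ¬ D b a → ∀ w, D a w → D b w ∨ ∃ x, D b x ∧ D x w) :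
    ∃ p : V → ℝ, (∀ v, 0 ≤ p v) ∧ ∑ v, p v = 1 ∧
      ∀ w, wt p {v | w ∈ N1 D v} ≤ wt p {v | w ∈ N2 D v} := by
  classical
  obtain ⟨p, h0, h1, h2⟩ := exists_losing D
  refine ⟨p, h0, h1, fun w => ?_⟩
  have h := losing_step D hD p h0 h2 0 le_rfl (fun b w' _ hb1 hb2 hb3 => by
    unfold wt
    refine (sum_eq_zero fun u _ => ?_).le
    simp only [Set.mem_ofPred_eq]
    split_ifs with h
    · have h4 : u ≠ b := fun h' => hb2 (h' ▸ h.1)
      rcases hT u b h4 h.2.1 h.2.2 w' h.1 with h5 | h5
      · exact absurd h5 hb2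
      · exact absurd h5 hb3
    · rfl) w
  rw [add_zero] at h
  have e1 : ({v | w ∈ N1 D v} : Set V) = {u | D u w} := rfl
  have e2 : ({v | w ∈ N2 D v} : Set V) = {u | u ≠ w ∧ ¬ D u w ∧ ∃ x, D u x ∧ D x w} := by
    ext u
    simp only [N2, Set.mem_ofPred_eq, ne_comm]
  rw [e1, e2]
  exact h

/-- If for distinct non-adjacent `a`, `b` every out-neighbour of `a` is at distance at most two
from `b`, then the conjecture holds. -/
theorem domination {V : Type} [Fintype V] [Nonempty V] (D : V → V → Prop)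
    (hD : ∀ x y, D x y → ¬ D y x)
    (hT : ∀ a b, a ≠ b → ¬ D a b → ¬ D b a → ∀ w, D a w → D b w ∨ ∃ x, D b x ∧ D x w) :
    ∃ v, (N1 D v).ncard ≤ (N2 D v).ncard := by
  obtain ⟨p, h0, h1, h2⟩ := exists_losing D
  exact losing_exact D hD p h0 h1 h2 fun a b _ _ hab h3 h4 => hT a b hab h3 h4

end Vale.Agent.P038
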