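import Vale.Agent.P038.Defs

/-! P038 module FEED (Havet-Thomasse). -/

namespace Vale.Agent.P038

/-- Let `G c = {k | c < r k < r f, T k f, ∃ i, c < r i, r i < r k, T f i, T i k}`.  Induction on
the number of `x` with `c < r x < r f`: `#{x | c < r x < r f, T f x} ≤ # G c`.
If every `k` with `c < r k < r f`, `T k f` lies in `G c`, this is `hr f c`.
Otherwise take such an `i ∉ G c` (bad) with `r i` minimal.  For `j` with `c < r j < r i` and
`T f j` we have `¬ T j i`, so `T i j`.  For `k` with `c < r k < r i` and `T k i` we have `¬ T f k`,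
so `T k f`, and `k` is not bad, so `k ∈ G c`.  So
`#{j | c < r j < r i, T f j} ≤ #{c < r j < r i, T i j} ≤ #{c < r k < r i, T k i}
 ≤ #(G c ∩ {r k < r i})` by `hr i c`; the induction hypothesis for `c := r i` gives the part above
`r i` (`G (r i) ⊆ G c ∩ {r i < r k}`), and `i` itself is not in `{T f x}`. -/
theorem feed_aux {V : Type*} [Fintype V] (T : V → V → Prop) (hT : ∀ x y, T x y → ¬ T y x)
    (htot : ∀ x y, x ≠ y → T x y ∨ T y x) (r : V → ℝ) (hinj : Function.Injective r)
    (hr : ∀ v : V, ∀ c : ℝ, c < r v →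
      {x | c < r x ∧ r x < r v ∧ T v x}.ncard ≤ {x | c < r x ∧ r x < r v ∧ T x v}.ncard)
    (f : V) (c : ℝ) (hc : c < r f) :
    {x | c < r x ∧ r x < r f ∧ T f x}.ncard ≤
      {k | c < r k ∧ r k < r f ∧ T k f ∧ ∃ i, c < r i ∧ r i < r k ∧ T f i ∧ T i k}.ncard := by
  classical
  obtain ⟨n, hn⟩ : ∃ n, ({x | c < r x ∧ r x < r f} : Set V).ncard = n := ⟨_, rfl⟩
  induction n using Nat.strong_induction_on generalizing c with
  | _ n ih =>
  by_cases hall : ∀ k, c < r k → r k < r f → T k f → ∃ i, c < r i ∧ r i < r k ∧ T f i ∧ T i k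
  · refine (hr f c hc).trans (Set.ncard_le_ncard ?_ (Set.toFinite _))
    rintro x ⟨h1, h2, h3⟩
    exact ⟨h1, h2, h3, hall x h1 h2 h3⟩
  · push Not at hall
    obtain ⟨i, hiB, hmin⟩ := Set.exists_min_image
      {k | c < r k ∧ r k < r f ∧ T k f ∧ ∀ i, c < r i → r i < r k → T f i → ¬ T i k} r
      (Set.toFinite _) (by
        obtain ⟨k, h1, h2, h3, h4⟩ := hall
        exact ⟨k, h1, h2, h3, h4⟩)
    obtain ⟨hi1, hi2, hi3, hi4⟩ := hiB
    -- lower part
    have hA : ({x | c < r x ∧ r x < r i ∧ T f x} : Set V).ncard ≤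
        {x | c < r x ∧ r x < r i ∧ T i x}.ncard := by
      refine Set.ncard_le_ncard ?_ (Set.toFinite _)
      rintro x ⟨h1, h2, h3⟩
      refine ⟨h1, h2, ?_⟩
      rcases htot i x (fun h => by rw [h] at h2; exact lt_irrefl _ h2) with h | h
      · exact h
      · exact absurd h (hi4 x h1 h2 h3)
    have hB := hr i c hi1
    have hC : ({x | c < r x ∧ r x < r i ∧ T x i} : Set V) ⊆
        {k | c < r k ∧ r k < r f ∧ T k f ∧ ∃ i, c < r i ∧ r i < r k ∧ T f i ∧ T i k} ∩
          {k | r k < r i} := by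
      rintro x ⟨h1, h2, h3⟩
      have hxf : r x < r f := h2.trans hi2
      have h4 : ¬ T f x := fun h => hi4 x h1 h2 h h3
      have h5 : T x f := by
        rcases htot x f (fun h => by rw [h] at hxf; exact lt_irrefl _ hxf) with h | h
        · exact h
        · exact absurd h h4
      refine ⟨⟨h1, hxf, h5, ?_⟩, h2⟩
      by_contra hcon
      push Not at hcon
      have h6 := hmin x ⟨h1, hxf, h5, hcon⟩
      exact absurd h2 (not_lt.2 h6)
    -- upper part by induction
    have hlt : ({x | r i < r x ∧ r x < r f} : Set V).ncard < n := by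
      rw [← hn]
      refine Set.ncard_lt_ncard ?_ (Set.toFinite _)
      refine ⟨fun x hx => ⟨hi1.trans hx.1, hx.2⟩, fun hsub => ?_⟩
      exact lt_irrefl _ (hsub (show i ∈ {x | c < r x ∧ r x < r f} from ⟨hi1, hi2⟩)).1
    have hD := ih _ hlt (r i) hi2 rfl
    have hE : ({k | r i < r k ∧ r k < r f ∧ T k f ∧
        ∃ i', r i < r i' ∧ r i' < r k ∧ T f i' ∧ T i' k} : Set V) ⊆
        {k | c < r k ∧ r k < r f ∧ T k f ∧ ∃ i, c < r i ∧ r i < r k ∧ T f i ∧ T i k} ∩
          {k | r i < r k} := by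
      rintro x ⟨h1, h2, h3, i', h4, h5, h6, h7⟩
      exact ⟨⟨hi1.trans h1, h2, h3, i', hi1.trans h4, h5, h6, h7⟩, h1⟩
    have hS : ({x | c < r x ∧ r x < r f ∧ T f x} : Set V) ⊆
        {x | c < r x ∧ r x < r i ∧ T f x} ∪ {x | r i < r x ∧ r x < r f ∧ T f x} := by
      rintro x ⟨h1, h2, h3⟩
      rcases lt_trichotomy (r x) (r i) with h | h | h
      · exact Or.inl ⟨h1, h, h3⟩
      · have hxi : x = i := hinj h
        rw [hxi] at h3
        exact absurd h3 (hT i f hi3)
      · exact Or.inr ⟨h, h2, h3⟩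
    have h1 := (Set.ncard_le_ncard hS (Set.toFinite _)).trans (Set.ncard_union_le _ _)
    have h2 := Set.ncard_le_ncard hC (Set.toFinite _)
    have h3 := Set.ncard_le_ncard hE (Set.toFinite _)
    have h4 : ({k | c < r k ∧ r k < r f ∧ T k f ∧
          ∃ i, c < r i ∧ r i < r k ∧ T f i ∧ T i k} ∩ {k | r k < r i} : Set V).ncard +
        ({k | c < r k ∧ r k < r f ∧ T k f ∧
          ∃ i, c < r i ∧ r i < r k ∧ T f i ∧ T i k} ∩ {k | r i < r k} : Set V).ncard ≤
        {k | c < r k ∧ r k < r f ∧ T k f ∧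
          ∃ i, c < r i ∧ r i < r k ∧ T f i ∧ T i k}.ncard := by
      rw [← Set.ncard_union_eq ?_ (Set.toFinite _) (Set.toFinite _)]
      · refine Set.ncard_le_ncard ?_ (Set.toFinite _)
        rintro x (hx | hx)
        · exact hx.1
        · exact hx.1
      · rw [Set.disjoint_left]
        intro x hx hx'
        exact absurd (show r x < r i from hx.2) (not_lt.2 (le_of_lt hx'.2))
    omega

/-- The last vertex: take `c` below all values of `r` in `feed_aux`. -/
theorem feed {V : Type*} [Fintype V] (T : V → V → Prop) (hT : ∀ x y, T x y → ¬ T y x)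
    (htot : ∀ x y, x ≠ y → T x y ∨ T y x) (r : V → ℝ) (hinj : Function.Injective r)
    (hr : ∀ v : V, ∀ c : ℝ, c < r v →
      {x | c < r x ∧ r x < r v ∧ T v x}.ncard ≤ {x | c < r x ∧ r x < r v ∧ T x v}.ncard)
    (f : V) (hf : ∀ x, r x ≤ r f) :
    (N1 T f).ncard ≤ (N2 T f).ncard := by
  have hirr : ∀ x, ¬ T x x := fun x h => hT x x h h
  obtain ⟨c, hc⟩ : ∃ c : ℝ, ∀ x, c < r x := by
    obtain ⟨b, hb⟩ := (Set.finite_range r).bddBelow
    exact ⟨b - 1, fun x => by linarith [hb ⟨x, rfl⟩]⟩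
  have h := feed_aux T hT htot r hinj hr f c (hc f)
  have h1 : {x | c < r x ∧ r x < r f ∧ T f x} = N1 T f := by
    ext x
    constructor
    · rintro ⟨_, _, h3⟩
      exact h3
    · intro h3
      have hx : x ≠ f := fun hxf => hirr f (by rw [hxf] at h3; exact h3)
      exact ⟨hc x, lt_of_le_of_ne (hf x) (fun he => hx (hinj he)), h3⟩
  rw [h1] at h
  refine h.trans (Set.ncard_le_ncard ?_ (Set.toFinite _))
  rintro k ⟨_, _, h4, i, _, _, h5, h6⟩
  exact ⟨fun hkf => hirr f (by rw [hkf] at h4; exact h4), hT k f h4, i, h5, h6⟩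

end Vale.Agent.P038
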