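import Vale.Agent.P038.Defs

/-! P038: losing densities.  Let `p(N⁻(v)) ≤ p(N⁺(v))` for all `v`.  If for every vertex `b` of the
support and every `w` at distance at least three from `b` the in-neighbours of `w` which are not
adjacent to `b` have weight at most `κ`, then `E_p |N1| ≤ E_p |N2| + κ n`. -/

namespace Vale.Agent.P038

open Finset

/-- The step at one vertex `w`. -/
theorem losing_step {V : Type} [Fintype V] (D : V → V → Prop) (hD : ∀ x y, D x y → ¬ D y x)
    (p : V → ℝ) (hp : ∀ v, 0 ≤ p v) (hl : ∀ v, wt p {u | D u v} ≤ wt p (N1 D v))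
    (κ : ℝ) (hκ : 0 ≤ κ)
    (hM : ∀ b w, 0 < p b → b ≠ w → ¬ D b w → (¬ ∃ x, D b x ∧ D x w) →
      wt p {u | D u w ∧ ¬ D u b ∧ ¬ D b u} ≤ κ) (w : V) :
    wt p {u | D u w} ≤ wt p {u | u ≠ w ∧ ¬ D u w ∧ ∃ x, D u x ∧ D x w} + κ := by
  classical
  set B : V → Prop := fun u => u ≠ w ∧ ¬ D u w ∧ ¬ ∃ x, D u x ∧ D x w with hB
  by_cases h0 : ∀ b, B b → p b = 0
  · have h1 : wt p (N1 D w) ≤ wt p {u | u ≠ w ∧ ¬ D u w ∧ ∃ x, D u x ∧ D x w} := by
      unfold wt
      refine sum_le_sum fun u _ => ?_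
      simp only [N1, Set.mem_ofPred_eq]
      by_cases h2 : D w u
      · have h3 : u ≠ w := fun h => hD _ _ h2 (h ▸ h2)
        have h4 : ¬ D u w := hD _ _ h2
        by_cases h5 : ∃ x, D u x ∧ D x w
        · simp [h2, h3, h4, h5]
        · simp [h2, h3, h4, h5, h0 u ⟨h3, h4, h5⟩]
      · simp only [h2, if_false]
        split_ifs
        · exact hp u
        · exact le_rfl
    linarith [hl w]
  · push Not at h0
    -- choose b
    set F : V → ℝ := fun b => ∑ u, if B u ∧ D u b then p u else 0 with hF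
    set G : V → ℝ := fun b => ∑ u, if B u ∧ D b u then p u else 0 with hG
    have hsum : ∑ b, (if B b then p b * (F b - G b) else 0) = 0 := by
      have e1 : ∑ b, (if B b then p b * F b else 0)
          = ∑ b, ∑ u, (if B b ∧ B u ∧ D u b then p b * p u else 0) := by
        refine sum_congr rfl fun b _ => ?_
        by_cases hb : B b
        · simp only [hb, if_true, hF, mul_sum, true_and]
          refine sum_congr rfl fun u _ => ?_
          split_ifs <;> simp
        · simp [hb]
      have e2 : ∑ b, (if B b then p b * G b else 0)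
          = ∑ b, ∑ u, (if B b ∧ B u ∧ D b u then p b * p u else 0) := by
        refine sum_congr rfl fun b _ => ?_
        by_cases hb : B b
        · simp only [hb, if_true, hG, mul_sum, true_and]
          refine sum_congr rfl fun u _ => ?_
          split_ifs <;> simp
        · simp [hb]
      have e3 : ∑ b, ∑ u, (if B b ∧ B u ∧ D u b then p b * p u else 0)
          = ∑ b, ∑ u, (if B b ∧ B u ∧ D b u then p b * p u else 0) := by
        rw [sum_comm]
        refine sum_congr rfl fun b _ => sum_congr rfl fun u _ => ?_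
        by_cases h : B b ∧ B u ∧ D b u
        · rw [if_pos h, if_pos ⟨h.2.1, h.1, h.2.2⟩, mul_comm]
        · rw [if_neg h, if_neg fun h' => h ⟨h'.2.1, h'.1, h'.2.2⟩]
      have e4 : ∑ b, (if B b then p b * (F b - G b) else 0)
          = ∑ b, (if B b then p b * F b else 0) - ∑ b, (if B b then p b * G b else 0) := by
        rw [← sum_sub_distrib]
        refine sum_congr rfl fun b _ => ?_
        split_ifs <;> ring
      rw [e4, e1, e2, e3, sub_self]
    obtain ⟨b, hbB, hbp, hbFG⟩ : ∃ b, B b ∧ 0 < p b ∧ G b ≤ F b := by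
      by_contra hcon
      push Not at hcon
      obtain ⟨b0, hb0, hb0p⟩ := h0
      have hb0p' : 0 < p b0 := lt_of_le_of_ne (hp b0) (Ne.symm hb0p)
      have : ∑ b, (if B b then p b * (F b - G b) else 0) < 0 := by
        refine lt_of_lt_of_eq (sum_lt_sum (g := fun _ => (0 : ℝ)) ?_ ⟨b0, mem_univ _, ?_⟩)
          sum_const_zero
        · intro b _
          by_cases hb : B b
          · simp only [hb, if_true]
            rcases eq_or_lt_of_le (hp b) with h | h
            · simp [← h]
            · exact (mul_neg_of_pos_of_neg h (by linarith [hcon b hb h])).le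
          · simp [hb]
        · simp only [hb0, if_true]
          exact mul_neg_of_pos_of_neg hb0p' (by linarith [hcon b0 hb0 hb0p'])
      linarith
    obtain ⟨hb1, hb2, hb3⟩ := hbB
    have hlow : wt p {u | D u w} + F b ≤
        wt p {u | D u b} + wt p {u | D u w ∧ ¬ D u b ∧ ¬ D b u} := by
      unfold wt
      rw [hF, ← sum_add_distrib, ← sum_add_distrib]
      refine sum_le_sum fun u _ => ?_
      simp only [Set.mem_ofPred_eq]
      by_cases h1 : D u w
      · have h2 : ¬ B u := fun h => h.2.1 h1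
        have h3 : ¬ D b u := fun h => hb3 ⟨u, h, h1⟩
        have h4 : u ≠ b := fun h => hb2 (h ▸ h1)
        by_cases h5 : D u b
        · simp [h1, h2, h5]
        · simp [h1, h2, h3, h4, h5]
      · by_cases h2 : B u ∧ D u b
        · simp only [h1, h2, if_true, if_false, and_self]
          split_ifs <;> linarith [hp u]
        · simp only [h1, h2, if_false]
          split_ifs <;> linarith [hp u]
    have hupp : wt p (N1 D b) ≤ wt p {u | u ≠ w ∧ ¬ D u w ∧ ∃ x, D u x ∧ D x w} + G b := by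
      unfold wt
      rw [hG, ← sum_add_distrib]
      refine sum_le_sum fun u _ => ?_
      simp only [N1, Set.mem_ofPred_eq]
      by_cases h1 : D b u
      · have h2 : u ≠ w := fun h => hb2 (h ▸ h1)
        have h3 : ¬ D u w := fun h => hb3 ⟨u, h1, h⟩
        by_cases h5 : ∃ x, D u x ∧ D x w
        · simp only [h1, h2, h3, h5, if_true, not_false_eq_true, ne_eq, and_self]
          split_ifs <;> linarith [hp u]
        · have h6 : B u := ⟨h2, h3, h5⟩
          simp [h1, h6, h2, h3, h5]
      · simp only [h1, if_false]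
        split_ifs <;> linarith [hp u]
    linarith [hl b, hM b w hbp hb1 hb2 hb3]

open Classical in
theorem sum_ite_ncard {V : Type} [Fintype V] (P : V → Prop) (c : ℝ) :
    ∑ w, (if P w then c else 0) = c * ({w | P w} : Set V).ncard := by
  rw [← sum_filter, sum_const, nsmul_eq_mul, mul_comm, Set.ncard_eq_toFinset_card']
  congr 3
  ext x
  simp

/-- The average over all vertices. -/
theorem losing_avg {V : Type} [Fintype V] (D : V → V → Prop) (hD : ∀ x y, D x y → ¬ D y x)
    (p : V → ℝ) (hp : ∀ v, 0 ≤ p v) (hl : ∀ v, wt p {u | D u v} ≤ wt p (N1 D v))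
    (κ : ℝ) (hκ : 0 ≤ κ)
    (hM : ∀ b w, 0 < p b → b ≠ w → ¬ D b w → (¬ ∃ x, D b x ∧ D x w) →
      wt p {u | D u w ∧ ¬ D u b ∧ ¬ D b u} ≤ κ) :
    ∑ v, p v * (N1 D v).ncard ≤ ∑ v, p v * (N2 D v).ncard + κ * Fintype.card V := by
  classical
  have h1 : ∑ w, wt p {u | D u w} = ∑ v, p v * (N1 D v).ncard := by
    unfold wt
    rw [sum_comm]
    refine sum_congr rfl fun v _ => ?_
    exact (sum_ite_ncard (fun w => D v w) (p v))
  have h2 : ∑ w, wt p {u | u ≠ w ∧ ¬ D u w ∧ ∃ x, D u x ∧ D x w}
      = ∑ v, p v * (N2 D v).ncard := by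
    unfold wt
    rw [sum_comm]
    refine sum_congr rfl fun v _ => ?_
    refine Eq.trans ?_ (sum_ite_ncard (fun w => w ≠ v ∧ ¬ D v w ∧ ∃ x, D v x ∧ D x w) (p v))
    refine sum_congr rfl fun w _ => ?_
    simp only [Set.mem_ofPred_eq, ne_comm]
  have h3 : ∑ w, wt p {u | D u w} ≤
      ∑ w, (wt p {u | u ≠ w ∧ ¬ D u w ∧ ∃ x, D u x ∧ D x w} + κ) :=
    sum_le_sum fun w _ => losing_step D hD p hp hl κ hκ hM w
  rw [sum_add_distrib, sum_const, nsmul_eq_mul, card_univ] at h3
  rw [h1, h2] at h3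
  linarith

/-- Some vertex of the support. -/
theorem losing_exists {V : Type} [Fintype V] (D : V → V → Prop) (hD : ∀ x y, D x y → ¬ D y x)
    (p : V → ℝ) (hp : ∀ v, 0 ≤ p v) (hs : ∑ v, p v = 1)
    (hl : ∀ v, wt p {u | D u v} ≤ wt p (N1 D v)) (κ : ℝ) (hκ : 0 ≤ κ)
    (hM : ∀ b w, 0 < p b → b ≠ w → ¬ D b w → (¬ ∃ x, D b x ∧ D x w) →
      wt p {u | D u w ∧ ¬ D u b ∧ ¬ D b u} ≤ κ) :
    ∃ v, 0 < p v ∧ ((N1 D v).ncard : ℝ) ≤ (N2 D v).ncard + κ * Fintype.card V := by
  classical
  have h := losing_avg D hD p hp hl κ hκ hM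
  by_contra hcon
  push Not at hcon
  obtain ⟨v0, hv0⟩ : ∃ v, 0 < p v := by
    by_contra h0
    push Not at h0
    have : ∑ v, p v ≤ 0 := sum_nonpos fun v _ => h0 v
    linarith
  have h1 : ∑ v, p v * ((N2 D v).ncard + κ * Fintype.card V) < ∑ v, p v * (N1 D v).ncard := by
    refine sum_lt_sum ?_ ⟨v0, mem_univ _, ?_⟩
    · intro v _
      rcases eq_or_lt_of_le (hp v) with h | h
      · simp [← h]
      · exact mul_le_mul_of_nonneg_left (hcon v h).le (hp v)
    · exact mul_lt_mul_of_pos_left (hcon v0 hv0) hv0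
  have h2 : ∑ v, p v * ((N2 D v).ncard + κ * Fintype.card V)
      = ∑ v, p v * (N2 D v).ncard + κ * Fintype.card V := by
    simp only [mul_add, sum_add_distrib]
    rw [← sum_mul, hs, one_mul]
  linarith

/-- A losing density such that for non-adjacent vertices `a`, `b` of the support every
out-neighbour of `a` is at distance at most two from `b`. -/
theorem losing_exact {V : Type} [Fintype V] (D : V → V → Prop)
    (hD : ∀ x y, D x y → ¬ D y x)
    (p : V → ℝ) (hp : ∀ v, 0 ≤ p v) (hs : ∑ v, p v = 1)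
    (hl : ∀ v, wt p {u | D u v} ≤ wt p (N1 D v))
    (hT : ∀ a b, 0 < p a → 0 < p b → a ≠ b → ¬ D a b → ¬ D b a →
      ∀ w, D a w → D b w ∨ ∃ x, D b x ∧ D x w) :
    ∃ v, (N1 D v).ncard ≤ (N2 D v).ncard := by
  classical
  obtain ⟨v, -, hv⟩ := losing_exists D hD p hp hs hl 0 le_rfl fun b w hb h1 h2 h3 => by
    unfold wt
    refine (sum_eq_zero fun u _ => ?_).le
    simp only [Set.mem_ofPred_eq]
    split_ifs with h
    · by_contra h0
      have h4 : u ≠ b := fun h' => h2 (h' ▸ h.1)
      rcases hT u b (lt_of_le_of_ne (hp u) (Ne.symm h0)) hb h4 h.2.1 h.2.2 w h.1 with h5 | h5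
      · exact h2 h5
      · exact h3 h5
    · rfl
  refine ⟨v, ?_⟩
  rw [zero_mul, add_zero] at hv
  exact_mod_cast hv

end Vale.Agent.P038
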