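import Vale.Agent.P038.Defs

/-! P038 module NUM: numerics. -/

namespace Vale.Agent.P038

/-- With `m = ⌈1024 / δ ^ 3⌉`: `m + 1 ≤ 1026 / δ ^ 3` and, with `y = 1 / δ ≥ 1`,
`δ ^ 2 * m / 64 ≥ 16 y`, `exp (16 y) ≥ (16 y) ^ 5 / 120 > 8738 y ^ 5 ≥ 4 * 1026 * y ^ 3`
(`Real.pow_div_factorial_le_exp` or a partial sum of exp). -/
theorem num (δ : ℝ) (h0 : 0 < δ) (h1 : δ ≤ 1) : ∃ m : ℕ, 0 < m ∧
    4 * ((m : ℝ) + 1) * Real.exp (-((δ / 4 * m) ^ 2 / (4 * m))) < 1 ∧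
    2 * ((m : ℝ) + 1) * (δ ^ 4 / 5000) ≤ δ / 2 := by
  have hd3 : 0 < δ ^ 3 := by positivity
  have hd31 : δ ^ 3 ≤ 1 := pow_le_one₀ h0.le h1
  obtain ⟨m, hm⟩ : ∃ m : ℕ, m = ⌈1024 / δ ^ 3⌉₊ := ⟨_, rfl⟩
  have hm1 : 1024 / δ ^ 3 ≤ (m : ℝ) := by
    rw [hm]
    exact Nat.le_ceil _
  have hm2 : (m : ℝ) < 1024 / δ ^ 3 + 1 := by
    rw [hm]
    exact Nat.ceil_lt_add_one (by positivity)
  have hmpos : (0 : ℝ) < m := lt_of_lt_of_le (by positivity) hm1
  have hone : 1 ≤ 1 / δ ^ 3 := by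
    rw [le_div_iff₀ hd3]
    linarith
  have hm3 : (m : ℝ) + 1 ≤ 1026 / δ ^ 3 := by
    have e1 : 1026 / δ ^ 3 = 1024 / δ ^ 3 + 2 * (1 / δ ^ 3) := by ring
    rw [e1]
    linarith
  refine ⟨m, by exact_mod_cast hmpos, ?_, ?_⟩
  · have e2 : (δ / 4 * m) ^ 2 / (4 * m) = δ ^ 2 * m / 64 := by
      field_simp
      ring
    rw [e2]
    have hX : 16 / δ ≤ δ ^ 2 * m / 64 := by
      calc 16 / δ = δ ^ 2 * (1024 / δ ^ 3) / 64 := by
            field_simp
            norm_num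
        _ ≤ δ ^ 2 * m / 64 := by
            have := mul_le_mul_of_nonneg_left hm1 (sq_nonneg δ)
            linarith
    have hexp : (16 / δ) ^ 5 / 120 ≤ Real.exp (δ ^ 2 * m / 64) := by
      have h2 := Real.pow_div_factorial_le_exp (16 / δ) (by positivity) 5
      have h3 : ((Nat.factorial 5 : ℕ) : ℝ) = 120 := by norm_num [Nat.factorial]
      rw [h3] at h2
      exact h2.trans (Real.exp_le_exp.2 hX)
    have h4 : 4 * ((m : ℝ) + 1) < Real.exp (δ ^ 2 * m / 64) := by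
      have h5 : 4 * (1026 / δ ^ 3) < (16 / δ) ^ 5 / 120 := by
        have e3 : (16 / δ) ^ 5 / 120 = (1048576 / 120) * (1 / δ ^ 3) * (1 / δ ^ 2) := by
          field_simp
          norm_num
        have h6 : 1 ≤ 1 / δ ^ 2 := by
          rw [le_div_iff₀ (by positivity)]
          nlinarith
        rw [e3]
        have h7 : (1048576 / 120) * (1 / δ ^ 3) * 1 ≤
            (1048576 / 120) * (1 / δ ^ 3) * (1 / δ ^ 2) :=
          mul_le_mul_of_nonneg_left h6 (by positivity)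
        refine lt_of_lt_of_le ?_ h7
        have e4 : 4 * (1026 / δ ^ 3) = 4104 * (1 / δ ^ 3) := by ring
        rw [e4, mul_one]
        exact mul_lt_mul_of_pos_right (by norm_num) (by positivity)
      linarith
    rw [Real.exp_neg]
    have hE := Real.exp_pos (δ ^ 2 * m / 64)
    rw [← div_eq_mul_inv, div_lt_one hE]
    exact h4
  · calc 2 * ((m : ℝ) + 1) * (δ ^ 4 / 5000) ≤ 2 * (1026 / δ ^ 3) * (δ ^ 4 / 5000) := by
          apply mul_le_mul_of_nonneg_right _ (by positivity)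
          linarith
      _ = 2052 / 5000 * δ := by
          field_simp
          norm_num
      _ ≤ δ / 2 := by linarith

end Vale.Agent.P038
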