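import Vale.Agent.P038.Defs

/-! P038 module PAIR: expected number of bad pairs. -/

namespace Vale.Agent.P038

open Finset

open Classical in
theorem PAIR_marg {V : Type*} [Fintype V] (ω : V → ℝ) (hsum : ∑ v, ω v = 1) {m : ℕ}
    {i j : Fin (m + 1)} (hij : i ≠ j) (u v : V) :
    (∑ x : Fin (m + 1) → V, (∏ k, ω (x k)) *
      ((if x i = u then (1 : ℝ) else 0) * (if x j = v then (1 : ℝ) else 0))) = ω u * ω v := by
  have h1 : ∀ x : Fin (m + 1) → V, (∏ k, ω (x k)) *
      ((if x i = u then (1 : ℝ) else 0) * (if x j = v then (1 : ℝ) else 0)) =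
      ∏ k, (ω (x k) * ((if k = i then (if x k = u then (1 : ℝ) else 0) else 1) *
        (if k = j then (if x k = v then (1 : ℝ) else 0) else 1))) := by
    intro x
    rw [Finset.prod_mul_distrib, Finset.prod_mul_distrib]
    congr 2
    · rw [Fintype.prod_eq_single i (fun k hk => by rw [if_neg hk]), if_pos rfl]
    · rw [Fintype.prod_eq_single j (fun k hk => by rw [if_neg hk]), if_pos rfl]
  simp only [h1]
  have h2 := Finset.prod_univ_sum (fun _ : Fin (m + 1) => (univ : Finset V))
    (fun k w => ω w * ((if k = i then (if w = u then (1 : ℝ) else 0) else 1) *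
        (if k = j then (if w = v then (1 : ℝ) else 0) else 1)))
  rw [Fintype.piFinset_univ] at h2
  rw [← h2, Fintype.prod_eq_mul i j hij]
  · have e1 : ∀ w : V, ω w * ((if i = i then (if w = u then (1 : ℝ) else 0) else 1) *
        (if i = j then (if w = v then (1 : ℝ) else 0) else 1)) = if w = u then ω w else 0 := by
      intro w
      rw [if_pos rfl, if_neg hij]
      split_ifs <;> ring
    have e2 : ∀ w : V, ω w * ((if j = i then (if w = u then (1 : ℝ) else 0) else 1) *
        (if j = j then (if w = v then (1 : ℝ) else 0) else 1)) = if w = v then ω w else 0 := by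
      intro w
      rw [if_pos rfl, if_neg hij.symm]
      split_ifs <;> ring
    rw [Finset.sum_congr rfl fun w _ => e1 w, Finset.sum_congr rfl fun w _ => e2 w]
    simp
  · intro k hk
    have e1 : ∀ w : V, ω w * ((if k = i then (if w = u then (1 : ℝ) else 0) else 1) *
        (if k = j then (if w = v then (1 : ℝ) else 0) else 1)) = ω w := by
      intro w
      rw [if_neg hk.1, if_neg hk.2]
      ring
    rw [Finset.sum_congr rfl fun w _ => e1 w, hsum]

/-- For `i ≠ j` the pair `(x i, x j)` has law `ω × ω`; sum over the `(m+1) * m` ordered pairs. -/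
theorem expected_pairs {V : Type*} [Fintype V] (ω : V → ℝ) (hsum : ∑ v, ω v = 1)
    (B : V → V → Prop) (m : ℕ) :
    (∑ x : Fin (m + 1) → V,
      (∏ j, ω (x j)) * ({p : Fin (m + 1) × Fin (m + 1) | p.1 ≠ p.2 ∧ B (x p.1) (x p.2)}.ncard : ℝ))
      = ((m : ℝ) + 1) * m * (∑ u, ∑ v, by classical exact (if B u v then ω u * ω v else 0)) := by
  classical
  have hncard : ∀ x : Fin (m + 1) → V,
      ({p : Fin (m + 1) × Fin (m + 1) | p.1 ≠ p.2 ∧ B (x p.1) (x p.2)}.ncard : ℝ) =
      ∑ p ∈ (univ : Finset (Fin (m + 1))).offDiag, if B (x p.1) (x p.2) then (1 : ℝ) else 0 := by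
    intro x
    rw [Set.ncard_eq_toFinset_card', Finset.sum_boole]
    congr 2
    ext p
    simp [Finset.mem_offDiag]
  have hind : ∀ (i j : Fin (m + 1)) (x : Fin (m + 1) → V),
      (if B (x i) (x j) then (1 : ℝ) else 0) =
      ∑ u, ∑ v, (if B u v then (1 : ℝ) else 0) *
        ((if x i = u then (1 : ℝ) else 0) * (if x j = v then (1 : ℝ) else 0)) := by
    intro i j x
    rw [Fintype.sum_eq_single (x i), Fintype.sum_eq_single (x j)]
    · simp
    · intro v hv
      rw [if_neg (fun h => hv h.symm : ¬ x j = v)]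
      simp
    · intro u hu
      refine Finset.sum_eq_zero fun v _ => ?_
      rw [if_neg (fun h => hu h.symm : ¬ x i = u)]
      simp
  set S : ℝ := ∑ u, ∑ v, (if B u v then ω u * ω v else 0) with hS
  have hp : ∀ p ∈ (univ : Finset (Fin (m + 1))).offDiag,
      ∑ x : Fin (m + 1) → V, (∏ j, ω (x j)) * (if B (x p.1) (x p.2) then (1 : ℝ) else 0) = S := by
    intro p hp
    have hne : p.1 ≠ p.2 := (Finset.mem_offDiag.1 hp).2.2
    calc ∑ x : Fin (m + 1) → V, (∏ j, ω (x j)) * (if B (x p.1) (x p.2) then (1 : ℝ) else 0)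
        = ∑ x : Fin (m + 1) → V, ∑ u, ∑ v, (if B u v then (1 : ℝ) else 0) *
            ((∏ j, ω (x j)) *
            ((if x p.1 = u then (1 : ℝ) else 0) * (if x p.2 = v then (1 : ℝ) else 0))) := by
          refine Finset.sum_congr rfl fun x _ => ?_
          rw [hind p.1 p.2 x, Finset.mul_sum]
          refine Finset.sum_congr rfl fun u _ => ?_
          rw [Finset.mul_sum]
          refine Finset.sum_congr rfl fun v _ => ?_
          ring
      _ = ∑ u, ∑ v, (if B u v then (1 : ℝ) else 0) * ∑ x : Fin (m + 1) → V, ((∏ j, ω (x j)) *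
            ((if x p.1 = u then (1 : ℝ) else 0) * (if x p.2 = v then (1 : ℝ) else 0))) := by
          rw [Finset.sum_comm]
          refine Finset.sum_congr rfl fun u _ => ?_
          rw [Finset.sum_comm]
          refine Finset.sum_congr rfl fun v _ => ?_
          rw [Finset.mul_sum]
      _ = S := by
          rw [hS]
          refine Finset.sum_congr rfl fun u _ => Finset.sum_congr rfl fun v _ => ?_
          rw [PAIR_marg ω hsum hne u v]
          split_ifs <;> ring
  calc (∑ x : Fin (m + 1) → V, (∏ j, ω (x j)) *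
        ({p : Fin (m + 1) × Fin (m + 1) | p.1 ≠ p.2 ∧ B (x p.1) (x p.2)}.ncard : ℝ))
      = ∑ p ∈ (univ : Finset (Fin (m + 1))).offDiag,
        ∑ x : Fin (m + 1) → V, (∏ j, ω (x j)) * (if B (x p.1) (x p.2) then (1 : ℝ) else 0) := by
        rw [Finset.sum_comm]
        refine Finset.sum_congr rfl fun x _ => ?_
        rw [hncard x, Finset.mul_sum]
    _ = ((m : ℝ) + 1) * m * S := by
        rw [Finset.sum_congr rfl hp, Finset.sum_const, Finset.offDiag_card, Finset.card_univ,
          Fintype.card_fin, nsmul_eq_mul]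
        have e : (m + 1) * (m + 1) - (m + 1) = (m + 1) * m := by
          rw [Nat.mul_succ (m + 1) m, Nat.add_sub_cancel]
        rw [e]
        push_cast
        ring

end Vale.Agent.P038
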