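import Vale.Agent.P038.Defs

/-! P038 modules TAIL, TAILI: exponential tail bound for weighted samples. -/

namespace Vale.Agent.P038

open Finset

/-- TAILU auxiliary: moment generating function of one coordinate -/
theorem TAILU_mgf {V : Type*} [Fintype V] (ω : V → ℝ) (hω : ∀ v, 0 ≤ ω v) (hsum : ∑ v, ω v = 1)
    (x : V → ℝ) (l : ℝ) (hl1 : l ≤ 1) (hx : ∀ v, |x v| ≤ l)
    (hmean : ∑ v, ω v * x v = 0) :
    ∑ v, ω v * Real.exp (x v) ≤ Real.exp (l ^ 2) := by
  have h1 : ∀ v, ω v * Real.exp (x v) ≤ ω v + ω v * x v + ω v * l ^ 2 := by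
    intro v
    have h2 := Real.abs_exp_sub_one_sub_id_le ((hx v).trans hl1)
    have h3 : Real.exp (x v) - 1 - x v ≤ x v ^ 2 := (le_abs_self _).trans h2
    have h4 : x v ^ 2 ≤ l ^ 2 := by
      rw [← sq_abs (x v)]
      exact pow_le_pow_left₀ (abs_nonneg _) (hx v) 2
    have h5 : Real.exp (x v) ≤ 1 + x v + l ^ 2 := by linarith
    calc ω v * Real.exp (x v) ≤ ω v * (1 + x v + l ^ 2) :=
          mul_le_mul_of_nonneg_left h5 (hω v)
      _ = ω v + ω v * x v + ω v * l ^ 2 := by ring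
  calc ∑ v, ω v * Real.exp (x v) ≤ ∑ v, (ω v + ω v * x v + ω v * l ^ 2) :=
        Finset.sum_le_sum fun v _ => h1 v
    _ = 1 + l ^ 2 := by
        rw [Finset.sum_add_distrib, Finset.sum_add_distrib, hsum, hmean, ← Finset.sum_mul, hsum]
        ring
    _ ≤ Real.exp (l ^ 2) := by
        have := Real.add_one_le_exp (l ^ 2)
        linarith

/-- TAILU auxiliary: the weight as a sum over indicators -/
theorem TAILU_wt {V : Type*} [Fintype V] (ω : V → ℝ) (A : Set V) :
    wt ω A = ∑ v, ω v * A.indicator (fun _ => (1 : ℝ)) v := by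
  classical
  unfold wt
  refine Finset.sum_congr rfl fun v _ => ?_
  by_cases h : v ∈ A
  · rw [Set.indicator_of_mem h, mul_one, if_pos h]
  · rw [Set.indicator_of_notMem h, mul_zero, if_neg h]

/-- TAILU auxiliary: number of hits as a sum over indicators -/
theorem TAILU_card {V : Type*} {m : ℕ} (A : Set V) (y : Fin m → V) :
    ((({j | y j ∈ A} : Set (Fin m)).ncard : ℕ) : ℝ) =
      ∑ j, A.indicator (fun _ => (1 : ℝ)) (y j) := by
  classical
  have h1 : ({j | y j ∈ A} : Set (Fin m)) =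
      ((Finset.univ.filter fun j => y j ∈ A : Finset (Fin m)) : Set (Fin m)) := by
    ext j
    simp
  rw [h1, Set.ncard_coe_finset, Finset.card_filter]
  push_cast
  refine Finset.sum_congr rfl fun j _ => ?_
  by_cases h : y j ∈ A
  · rw [Set.indicator_of_mem h, if_pos h]
  · rw [Set.indicator_of_notMem h, if_neg h]

/-- Markov for the exponential: `1[#{j | y j ∈ A} - m p ≥ t] ≤ exp (l * (∑ j, (1_A (y j) - p) - t))`
with `l = t / (2 m) ∈ [0, 1]`, sum over `y` by `Finset.prod_univ_sum` / `Fintype.sum_pow`, and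
`∑ v, ω v * exp (l (1_A v - p)) ≤ 1 + l ^ 2 ≤ exp (l ^ 2)` by `Real.abs_exp_sub_one_sub_id_le`.
Result `exp (-t^2/(4m))`. -/
theorem tail_upper {V : Type*} [Fintype V] (ω : V → ℝ) (hω : ∀ v, 0 ≤ ω v) (hsum : ∑ v, ω v = 1)
    (A : Set V) (m : ℕ) (hm : 0 < m) (t : ℝ) (ht : 0 ≤ t) (ht2 : t ≤ 2 * m) :
    (∑ y : Fin m → V, by
      classical exact (if (m : ℝ) * wt ω A + t ≤ ({j | y j ∈ A} : Set (Fin m)).ncard then
        ∏ j, ω (y j) else 0)) ≤ Real.exp (-(t ^ 2 / (4 * m))) := by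
  classical
  have hm' : (0 : ℝ) < m := by exact_mod_cast hm
  obtain ⟨l, hl⟩ : ∃ l : ℝ, l = t / (2 * m) := ⟨_, rfl⟩
  have hl0 : 0 ≤ l := by rw [hl]; positivity
  have hl1 : l ≤ 1 := by
    rw [hl, div_le_one (by positivity)]
    exact ht2
  obtain ⟨p, hp⟩ : ∃ p : ℝ, p = wt ω A := ⟨_, rfl⟩
  obtain ⟨ind, hind⟩ : ∃ ind : V → ℝ, ind = A.indicator (fun _ => (1 : ℝ)) := ⟨_, rfl⟩
  have hind01 : ∀ v, 0 ≤ ind v ∧ ind v ≤ 1 := by
    intro v
    rw [hind]
    by_cases h : v ∈ A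
    · rw [Set.indicator_of_mem h]
      exact ⟨zero_le_one, le_rfl⟩
    · rw [Set.indicator_of_notMem h]
      exact ⟨le_rfl, zero_le_one⟩
  have hp1 : p = ∑ v, ω v * ind v := by rw [hp, hind]; exact TAILU_wt ω A
  have hp0 : 0 ≤ p := by
    rw [hp1]
    exact Finset.sum_nonneg fun v _ => mul_nonneg (hω v) (hind01 v).1
  have hple : p ≤ 1 := by
    rw [hp1, ← hsum]
    exact Finset.sum_le_sum fun v _ => mul_le_of_le_one_right (hω v) (hind01 v).2
  have hx : ∀ v, |l * (ind v - p)| ≤ l := by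
    intro v
    rw [abs_mul, abs_of_nonneg hl0]
    refine mul_le_of_le_one_right hl0 (abs_le.2 ⟨?_, ?_⟩)
    · linarith [(hind01 v).1]
    · linarith [(hind01 v).2]
  have hmean : ∑ v, ω v * (l * (ind v - p)) = 0 := by
    have h1 : ∀ v, ω v * (l * (ind v - p)) = l * (ω v * ind v) - l * p * ω v := fun v => by ring
    rw [Finset.sum_congr rfl fun v _ => h1 v, Finset.sum_sub_distrib, ← Finset.mul_sum,
      ← Finset.mul_sum, ← hp1, hsum]
    ring
  have hmgf := TAILU_mgf ω hω hsum (fun v => l * (ind v - p)) l hl1 hx hmean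
  have hterm : ∀ y : Fin m → V, (m : ℝ) * wt ω A + t ≤ ({j | y j ∈ A} : Set (Fin m)).ncard →
      ∏ j, ω (y j) ≤ Real.exp (-(l * t)) * ∏ j, (ω (y j) * Real.exp (l * (ind (y j) - p))) := by
    intro y hy
    rw [TAILU_card, ← hp, ← hind] at hy
    have h1 : ∏ j, (ω (y j) * Real.exp (l * (ind (y j) - p))) =
        (∏ j, ω (y j)) * Real.exp (l * (∑ j, ind (y j) - m * p)) := by
      rw [Finset.prod_mul_distrib, ← Real.exp_sum]
      congr 2
      rw [← Finset.mul_sum, Finset.sum_sub_distrib, Finset.sum_const, Finset.card_univ,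
        Fintype.card_fin, nsmul_eq_mul]
    have h2 : (1 : ℝ) ≤ Real.exp (-(l * t)) * Real.exp (l * (∑ j, ind (y j) - m * p)) := by
      rw [← Real.exp_add]
      refine Real.one_le_exp ?_
      have h3 : 0 ≤ l * ((∑ j, ind (y j)) - m * p - t) := mul_nonneg hl0 (by linarith)
      linarith
    have h4 : 0 ≤ ∏ j, ω (y j) := Finset.prod_nonneg fun j _ => hω _
    calc ∏ j, ω (y j) = (∏ j, ω (y j)) * 1 := (mul_one _).symm
      _ ≤ (∏ j, ω (y j)) * (Real.exp (-(l * t)) * Real.exp (l * (∑ j, ind (y j) - m * p))) :=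
          mul_le_mul_of_nonneg_left h2 h4
      _ = _ := by rw [h1]; ring
  have hsumle : (∑ y : Fin m → V, by
      classical exact (if (m : ℝ) * wt ω A + t ≤ ({j | y j ∈ A} : Set (Fin m)).ncard then
        ∏ j, ω (y j) else 0)) ≤
      ∑ y : Fin m → V, Real.exp (-(l * t)) *
        ∏ j, (ω (y j) * Real.exp (l * (ind (y j) - p))) := by
    refine Finset.sum_le_sum fun y _ => ?_
    split_ifs with h
    · exact hterm y h
    · exact mul_nonneg (Real.exp_pos _).le
        (Finset.prod_nonneg fun j _ => mul_nonneg (hω _) (Real.exp_pos _).le)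
  refine hsumle.trans ?_
  rw [← Finset.mul_sum, ← Fintype.sum_pow (fun v => ω v * Real.exp (l * (ind v - p))) m]
  have h0 : 0 ≤ ∑ v, ω v * Real.exp (l * (ind v - p)) :=
    Finset.sum_nonneg fun v _ => mul_nonneg (hω v) (Real.exp_pos _).le
  calc Real.exp (-(l * t)) * (∑ v, ω v * Real.exp (l * (ind v - p))) ^ m
      ≤ Real.exp (-(l * t)) * (Real.exp (l ^ 2)) ^ m :=
        mul_le_mul_of_nonneg_left (pow_le_pow_left₀ h0 hmgf m) (Real.exp_pos _).le
    _ = Real.exp (-(t ^ 2 / (4 * m))) := by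
        rw [← Real.exp_nat_mul, ← Real.exp_add]
        congr 1
        rw [hl]
        field_simp
        ring

/-- The lower tail (apply `tail_upper` to the complement `Aᶜ`, `wt ω Aᶜ = 1 - wt ω A`,
`#{j | y j ∈ Aᶜ} = m - #{j | y j ∈ A}`). -/
theorem tail_lower {V : Type*} [Fintype V] (ω : V → ℝ) (hω : ∀ v, 0 ≤ ω v) (hsum : ∑ v, ω v = 1)
    (A : Set V) (m : ℕ) (hm : 0 < m) (t : ℝ) (ht : 0 ≤ t) (ht2 : t ≤ 2 * m) :
    (∑ y : Fin m → V, by
      classical exact (if (({j | y j ∈ A} : Set (Fin m)).ncard : ℝ) ≤ (m : ℝ) * wt ω A - t then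
        ∏ j, ω (y j) else 0)) ≤ Real.exp (-(t ^ 2 / (4 * m))) := by
  classical
  have hwt : wt ω Aᶜ = 1 - wt ω A := by
    unfold wt
    rw [eq_sub_iff_add_eq, ← Finset.sum_add_distrib, ← hsum]
    refine Finset.sum_congr rfl fun v _ => ?_
    by_cases hv : v ∈ A
    · have h1 : v ∉ Aᶜ := fun h => h hv
      simp only [if_pos hv, if_neg h1, zero_add]
    · have h1 : v ∈ Aᶜ := hv
      simp only [if_neg hv, if_pos h1, add_zero]
  have hcard : ∀ y : Fin m → V, (({j | y j ∈ Aᶜ} : Set (Fin m)).ncard : ℝ) =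
      m - (({j | y j ∈ A} : Set (Fin m)).ncard : ℝ) := by
    intro y
    have h1 : ({j | y j ∈ Aᶜ} : Set (Fin m)) = ({j | y j ∈ A} : Set (Fin m))ᶜ := rfl
    have h2 := Set.ncard_add_ncard_compl ({j | y j ∈ A} : Set (Fin m))
    rw [Nat.card_eq_fintype_card, Fintype.card_fin] at h2
    rw [h1, eq_sub_iff_add_eq, add_comm]
    exact_mod_cast h2
  refine le_trans (le_of_eq ?_) (tail_upper ω hω hsum Aᶜ m hm t ht ht2)
  refine Finset.sum_congr rfl fun y _ => ?_
  have hiff : (((({j | y j ∈ A} : Set (Fin m)).ncard : ℝ) ≤ (m : ℝ) * wt ω A - t)) ↔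
      ((m : ℝ) * wt ω Aᶜ + t ≤ ({j | y j ∈ Aᶜ} : Set (Fin m)).ncard) := by
    rw [hwt, hcard]
    constructor <;> intro h <;> linarith
  by_cases h : ((({j | y j ∈ A} : Set (Fin m)).ncard : ℝ) ≤ (m : ℝ) * wt ω A - t)
  · rw [if_pos h, if_pos (hiff.1 h)]
  · rw [if_neg h, if_neg (fun h' => h (hiff.2 h'))]

/-- Conditioning on one coordinate: `x = Fin.insertNth i v y` (`Fin.insertNthEquiv`,
`Fin.prod_univ_succAbove`); the sum over `y` is bounded by `b` for every `v`. -/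
theorem cond_coord {V : Type*} [Fintype V] (ω : V → ℝ) (hω : ∀ v, 0 ≤ ω v) (hsum : ∑ v, ω v = 1)
    (m : ℕ) (i : Fin (m + 1)) (P : V → (Fin m → V) → Prop) (b : ℝ)
    (hb : ∀ v, (∑ y : Fin m → V, by
      classical exact (if P v y then ∏ j, ω (y j) else 0)) ≤ b) :
    (∑ x : Fin (m + 1) → V, by
      classical exact (if P (x i) (fun j => x (i.succAbove j)) then ∏ j, ω (x j) else 0)) ≤ b := by
  classical
  have h1 : (∑ x : Fin (m + 1) → V,
      (if P (x i) (fun j => x (i.succAbove j)) then ∏ j, ω (x j) else 0)) =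
      ∑ p : V × (Fin m → V), (if P p.1 p.2 then ω p.1 * ∏ j, ω (p.2 j) else 0) := by
    rw [← (Fin.insertNthEquiv (fun _ => V) i).sum_comp]
    refine Finset.sum_congr rfl fun p _ => ?_
    simp [Fin.insertNthEquiv, Fin.prod_univ_succAbove _ i]
  have h2 : (∑ p : V × (Fin m → V), (if P p.1 p.2 then ω p.1 * ∏ j, ω (p.2 j) else 0)) =
      ∑ v, ω v * ∑ y : Fin m → V, (if P v y then ∏ j, ω (y j) else 0) := by
    rw [Fintype.sum_prod_type]
    refine Finset.sum_congr rfl fun v _ => ?_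
    rw [Finset.mul_sum]
    refine Finset.sum_congr rfl fun y _ => ?_
    simp only [mul_ite, mul_zero]
  have h3 : ∑ v, ω v * ∑ y : Fin m → V, (if P v y then ∏ j, ω (y j) else 0) ≤ ∑ v, ω v * b :=
    Finset.sum_le_sum fun v _ => mul_le_mul_of_nonneg_left (hb v) (hω v)
  rw [← Finset.sum_mul, hsum, one_mul] at h3
  have h4 := (h1.trans h2).trans_le h3
  exact h4

end Vale.Agent.P038
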