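import Vale.Agent.P038.Sample
import Vale.Agent.P038.Tail
import Vale.Agent.P038.Pair
import Vale.Agent.P038.Num

/-! P038 module MAIN: assembly. -/

namespace Vale.Agent.P038

open Finset

/-- Take `m` from `num`, `t = δ / 4 * m`, `q = 2 * E Q = 2 (m+1) m ε` (`ε > 0` as the diagonal is
bad).  The total weight of the samples with `Q ≥ q` is `≤ 1/2` (Markov, `expected_pairs`), of those
violating `h1` or `h2` for some `i` is `≤ 2 (m+1) exp (-t^2/(4m)) < 1/2` (`cond_coord` with
`tail_lower`, `tail_upper`).  So some sample is good; `of_sample` gives `v` with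
`wt N1 ≤ wt N2 + 2 t / m + q / m ≤ wt N2 + δ / 2 + 2 (m+1) ε ≤ wt N2 + δ`. -/
theorem weighted (δ : ℝ) (h0 : 0 < δ) (h1 : δ ≤ 1) {V : Type*} [Fintype V]
    (D : V → V → Prop) (hD : ∀ x y, D x y → ¬ D y x) (H : SimpleGraph V) (hH : IsThreshold H)
    (ω : V → ℝ) (hω : ∀ v, 0 ≤ ω v) (hsum : ∑ v, ω v = 1)
    (hε : (∑ u, ∑ v, by classical exact (if Bad D H u v then ω u * ω v else 0)) ≤ δ ^ 4 / 5000) :
    ∃ v, wt ω (N1 D v) ≤ wt ω (N2 D v) + δ := by
  classical
  obtain ⟨m, hm, hexp, hnum⟩ := num δ h0 h1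
  have hmR : (0 : ℝ) < m := by exact_mod_cast hm
  obtain ⟨E, hE⟩ : ∃ E : ℝ, E = ∑ u, ∑ v, (if Bad D H u v then ω u * ω v else 0) := ⟨_, rfl⟩
  have hEle : E ≤ δ ^ 4 / 5000 := by rw [hE]; convert hε
  have hE0 : 0 < E := by
    obtain ⟨v, hv⟩ : ∃ v, 0 < ω v := by
      by_contra hcon
      push Not at hcon
      have : ∑ v, ω v ≤ 0 := Finset.sum_nonpos fun v _ => hcon v
      linarith
    rw [hE]
    refine Finset.sum_pos' (fun u _ => Finset.sum_nonneg fun w _ => ?_) ⟨v, mem_univ _, ?_⟩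
    · split_ifs
      · exact mul_nonneg (hω _) (hω _)
      · exact le_refl _
    · refine Finset.sum_pos' (fun w _ => ?_) ⟨v, mem_univ _, ?_⟩
      · split_ifs
        · exact mul_nonneg (hω _) (hω _)
        · exact le_refl _
      · have hb : Bad D H v v := Or.inl rfl
        rw [if_pos hb]
        exact mul_pos hv hv
  obtain ⟨t, ht⟩ : ∃ t : ℝ, t = δ / 4 * m := ⟨_, rfl⟩
  obtain ⟨q, hq⟩ : ∃ q : ℝ, q = 2 * (((m : ℝ) + 1) * m * E) := ⟨_, rfl⟩
  have hq0 : 0 < q := by rw [hq]; positivity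
  have hqm : q ≤ m * (δ / 2) := by
    have h3 : 2 * ((m : ℝ) + 1) * E ≤ δ / 2 :=
      le_trans (mul_le_mul_of_nonneg_left hEle (by positivity)) hnum
    calc q = m * (2 * ((m : ℝ) + 1) * E) := by rw [hq]; ring
      _ ≤ m * (δ / 2) := mul_le_mul_of_nonneg_left h3 hmR.le
  have hqm' : q ≤ m := by nlinarith
  have ht0 : 0 ≤ t := by rw [ht]; positivity
  have ht2 : t ≤ 2 * m := by rw [ht]; nlinarith
  -- total weight
  have hW0 : ∀ x : Fin (m + 1) → V, 0 ≤ ∏ j, ω (x j) := fun x => Finset.prod_nonneg fun j _ => hω _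
  have hW1 : ∑ x : Fin (m + 1) → V, ∏ j, ω (x j) = 1 := by
    rw [← Fintype.prod_sum (fun (_ : Fin (m+1)) v => ω v)]
    simp [hsum]
  by_contra hcon
  push Not at hcon
  -- every sample is bad
  obtain ⟨Q, hQdef⟩ : ∃ Q : (Fin (m + 1) → V) → ℝ, ∀ x, Q x =
      ({p : Fin (m + 1) × Fin (m + 1) | p.1 ≠ p.2 ∧ Bad D H (x p.1) (x p.2)}.ncard : ℝ) :=
    ⟨_, fun x => rfl⟩
  have key : ∀ x : Fin (m + 1) → V, q ≤ Q x ∨
      (∃ i : Fin (m + 1), (({j | x (i.succAbove j) ∈ N1 D (x i)} : Set (Fin m)).ncard : ℝ) ≤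
        (m : ℝ) * wt ω (N1 D (x i)) - t) ∨
      (∃ i : Fin (m + 1), (m : ℝ) * wt ω (N2 D (x i)) + t ≤
        (({j | x (i.succAbove j) ∈ N2 D (x i)} : Set (Fin m)).ncard : ℝ)) := by
    intro x
    by_contra hx
    push Not at hx
    obtain ⟨hx1, hx2, hx3⟩ := hx
    obtain ⟨v, hv⟩ := of_sample D hD H hH ω m hm x t q hqm' (by rw [← hQdef]; exact hx1) hx2 hx3
    have h5 := hcon v
    have h6 : (m : ℝ) * (wt ω (N2 D v) + δ) < m * wt ω (N1 D v) :=
      mul_lt_mul_of_pos_left h5 hmR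
    rw [ht] at hv
    nlinarith
  -- Markov
  have hmark : ∑ x : Fin (m + 1) → V, (if q ≤ Q x then ∏ j, ω (x j) else 0) ≤ 1 / 2 := by
    have hexpQ : ∑ x : Fin (m + 1) → V, (∏ j, ω (x j)) * Q x = q / 2 := by
      have := expected_pairs ω hsum (Bad D H) m
      rw [hq, hE]
      simp only [hQdef]
      convert this using 1
      ring_nf
      
    have h7 : q * ∑ x : Fin (m + 1) → V, (if q ≤ Q x then ∏ j, ω (x j) else 0) ≤ q / 2 := by
      rw [← hexpQ, Finset.mul_sum]
      refine Finset.sum_le_sum fun x _ => ?_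
      split_ifs with hqx
      · rw [mul_comm]
        exact mul_le_mul_of_nonneg_left hqx (hW0 x)
      · rw [mul_zero]
        exact mul_nonneg (hW0 x) (by rw [hQdef]; positivity)
    have h8 : q * ∑ x : Fin (m + 1) → V, (if q ≤ Q x then ∏ j, ω (x j) else 0) ≤ q * (1 / 2) := by
      linarith
    exact le_of_mul_le_mul_left h8 hq0
  -- tails
  have htail1 : ∀ i : Fin (m + 1), ∑ x : Fin (m + 1) → V,
      (if (({j | x (i.succAbove j) ∈ N1 D (x i)} : Set (Fin m)).ncard : ℝ) ≤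
        (m : ℝ) * wt ω (N1 D (x i)) - t then ∏ j, ω (x j) else 0) ≤
      Real.exp (-(t ^ 2 / (4 * m))) := by
    intro i
    have := cond_coord ω hω hsum m i
      (fun v y => (({j | y j ∈ N1 D v} : Set (Fin m)).ncard : ℝ) ≤ (m : ℝ) * wt ω (N1 D v) - t)
      (Real.exp (-(t ^ 2 / (4 * m)))) (fun v => by
        have := tail_lower ω hω hsum (N1 D v) m hm t ht0 ht2
        convert this)
    convert this
  have htail2 : ∀ i : Fin (m + 1), ∑ x : Fin (m + 1) → V,
      (if (m : ℝ) * wt ω (N2 D (x i)) + t ≤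
        (({j | x (i.succAbove j) ∈ N2 D (x i)} : Set (Fin m)).ncard : ℝ) then
          ∏ j, ω (x j) else 0) ≤
      Real.exp (-(t ^ 2 / (4 * m))) := by
    intro i
    have := cond_coord ω hω hsum m i
      (fun v y => (m : ℝ) * wt ω (N2 D v) + t ≤ (({j | y j ∈ N2 D v} : Set (Fin m)).ncard : ℝ))
      (Real.exp (-(t ^ 2 / (4 * m)))) (fun v => by
        have := tail_upper ω hω hsum (N2 D v) m hm t ht0 ht2
        convert this)
    convert this
  -- union bound
  have hunion : ∀ x : Fin (m + 1) → V, ∏ j, ω (x j) ≤ (if q ≤ Q x then ∏ j, ω (x j) else 0) +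
      (∑ i : Fin (m + 1), (if (({j | x (i.succAbove j) ∈ N1 D (x i)} : Set (Fin m)).ncard : ℝ) ≤
        (m : ℝ) * wt ω (N1 D (x i)) - t then ∏ j, ω (x j) else 0)) +
      (∑ i : Fin (m + 1), (if (m : ℝ) * wt ω (N2 D (x i)) + t ≤
        (({j | x (i.succAbove j) ∈ N2 D (x i)} : Set (Fin m)).ncard : ℝ) then
          ∏ j, ω (x j) else 0)) := by
    intro x
    have hA : 0 ≤ (if q ≤ Q x then ∏ j, ω (x j) else 0) := by
      split_ifs
      · exact hW0 x
      · exact le_refl _
    have hB : ∀ i : Fin (m + 1), 0 ≤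
        (if (({j | x (i.succAbove j) ∈ N1 D (x i)} : Set (Fin m)).ncard : ℝ) ≤
        (m : ℝ) * wt ω (N1 D (x i)) - t then ∏ j, ω (x j) else 0) := by
      intro i
      split_ifs
      · exact hW0 x
      · exact le_refl _
    have hC : ∀ i : Fin (m + 1), 0 ≤ (if (m : ℝ) * wt ω (N2 D (x i)) + t ≤
        (({j | x (i.succAbove j) ∈ N2 D (x i)} : Set (Fin m)).ncard : ℝ) then
          ∏ j, ω (x j) else 0) := by
      intro i
      split_ifs
      · exact hW0 x
      · exact le_refl _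
    have hB' := Finset.sum_nonneg fun i (_ : i ∈ (univ : Finset (Fin (m + 1)))) => hB i
    have hC' := Finset.sum_nonneg fun i (_ : i ∈ (univ : Finset (Fin (m + 1)))) => hC i
    rcases key x with hx | ⟨i, hi⟩ | ⟨i, hi⟩
    · rw [if_pos hx]
      linarith
    · have := Finset.single_le_sum (fun i _ => hB i) (mem_univ i)
      rw [if_pos hi] at this
      linarith
    · have := Finset.single_le_sum (fun i _ => hC i) (mem_univ i)
      rw [if_pos hi] at this
      linarith
  have hfin := Finset.sum_le_sum fun x (_ : x ∈ (univ : Finset (Fin (m + 1) → V))) => hunion x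
  rw [hW1, Finset.sum_add_distrib, Finset.sum_add_distrib] at hfin
  rw [Finset.sum_comm (s := (univ : Finset (Fin (m + 1) → V))) (t := (univ : Finset (Fin (m + 1)))),
    Finset.sum_comm (s := (univ : Finset (Fin (m + 1) → V))) (t := (univ : Finset (Fin (m + 1))))]
    at hfin
  have hs1 := Finset.sum_le_sum fun i (_ : i ∈ (univ : Finset (Fin (m + 1)))) => htail1 i
  have hs2 := Finset.sum_le_sum fun i (_ : i ∈ (univ : Finset (Fin (m + 1)))) => htail2 i
  simp only [Finset.sum_const, Finset.card_univ, Fintype.card_fin, nsmul_eq_mul] at hs1 hs2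
  push_cast at hs1 hs2
  rw [← ht] at hexp
  nlinarith

/-- `ω = 1 / card V`. -/
theorem counting (δ : ℝ) (h0 : 0 < δ) (h1 : δ ≤ 1) {V : Type*} [Fintype V] [Nonempty V]
    (D : V → V → Prop) (hD : ∀ x y, D x y → ¬ D y x) (H : SimpleGraph V) (hH : IsThreshold H)
    (hε : ({p : V × V | Bad D H p.1 p.2}.ncard : ℝ) ≤ δ ^ 4 / 5000 * (Fintype.card V : ℝ) ^ 2) :
    ∃ v, ((N1 D v).ncard : ℝ) ≤ (N2 D v).ncard + δ * Fintype.card V := by
  classical
  have hn : (0 : ℝ) < Fintype.card V := by exact_mod_cast Fintype.card_pos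
  have hwt : ∀ S : Set V, wt (fun _ => 1 / (Fintype.card V : ℝ)) S = (S.ncard : ℝ) / Fintype.card V := by
    intro S
    have e0 : Finset.univ.filter (fun v => v ∈ S) = S.toFinset := by
      ext v
      simp
    have e1 : wt (fun _ => 1 / (Fintype.card V : ℝ)) S =
        ∑ v, (if v ∈ S then (1 : ℝ) else 0) * (1 / Fintype.card V) := by
      unfold wt
      refine Finset.sum_congr rfl fun v _ => ?_
      by_cases h : v ∈ S
      · rw [if_pos h, if_pos h, one_mul]
      · rw [if_neg h, if_neg h, zero_mul]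
    rw [e1, ← Finset.sum_mul, Finset.sum_boole, Set.ncard_eq_toFinset_card', mul_one_div, e0]
  have e1 : (∑ u, ∑ v, if Bad D H u v then
      1 / (Fintype.card V : ℝ) * (1 / (Fintype.card V : ℝ)) else 0) =
      ({p : V × V | Bad D H p.1 p.2}.ncard : ℝ) / (Fintype.card V : ℝ) ^ 2 := by
    rw [← Fintype.sum_prod_type' (f := fun u v => if Bad D H u v then
      1 / (Fintype.card V : ℝ) * (1 / (Fintype.card V : ℝ)) else 0)]
    have e2 : ∀ p : V × V, (if Bad D H p.1 p.2 then
        1 / (Fintype.card V : ℝ) * (1 / (Fintype.card V : ℝ)) else 0) =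
        (if Bad D H p.1 p.2 then (1 : ℝ) else 0) * (1 / (Fintype.card V : ℝ) ^ 2) := by
      intro p
      by_cases h : Bad D H p.1 p.2
      · rw [if_pos h, if_pos h]
        field_simp
      · rw [if_neg h, if_neg h, zero_mul]
    have e0 : Finset.univ.filter (fun p : V × V => Bad D H p.1 p.2) =
        {p : V × V | Bad D H p.1 p.2}.toFinset := by
      ext p
      simp
    rw [Finset.sum_congr rfl fun p _ => e2 p, ← Finset.sum_mul, Finset.sum_boole,
      Set.ncard_eq_toFinset_card', mul_one_div, e0]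
  have e3 : (∑ u, ∑ v, if Bad D H u v then
      1 / (Fintype.card V : ℝ) * (1 / (Fintype.card V : ℝ)) else 0) ≤ δ ^ 4 / 5000 := by
    rw [e1, div_le_iff₀ (by positivity)]
    exact hε
  obtain ⟨v, hv⟩ := weighted δ h0 h1 D hD H hH (fun _ => 1 / (Fintype.card V : ℝ))
    (fun _ => by positivity) (by
      rw [Finset.sum_const, Finset.card_univ, nsmul_eq_mul]
      field_simp) (by
      refine le_trans (le_of_eq ?_) e3
      refine Finset.sum_congr rfl fun u _ => Finset.sum_congr rfl fun v _ => ?_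
      by_cases h : Bad D H u v
      · simp only [if_pos h]
      · simp only [if_neg h])
  refine ⟨v, ?_⟩
  rw [hwt, hwt] at hv
  have h2 := mul_le_mul_of_nonneg_right hv hn.le
  rwa [add_mul, div_mul_cancel₀ _ hn.ne', div_mul_cancel₀ _ hn.ne'] at h2

end Vale.Agent.P038
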