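import Vale.Agent.P038.Defs

/-! P038 module ORD. -/

namespace Vale.Agent.P038

open Classical in
/-- the number of forward arcs -/
noncomputable def ORD_A {V : Type*} [Fintype V] (T : V → V → Prop) (r : V → ℝ) : Finset (V × V) :=
  Finset.univ.filter fun p => T p.1 p.2 ∧ r p.1 < r p.2

theorem ORD_max {V : Type*} [Fintype V] (T : V → V → Prop) :
    ∃ r : V → ℝ, Function.Injective r ∧ ∀ r' : V → ℝ, Function.Injective r' →
      (ORD_A T r').card ≤ (ORD_A T r).card := by
  have hne : {k : ℕ | ∃ r : V → ℝ, Function.Injective r ∧ (ORD_A T r).card = k}.Nonempty := by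
    refine ⟨_, fun v => ((Fintype.equivFin V v : ℕ) : ℝ), fun x y h => ?_, rfl⟩
    have h1 : (Fintype.equivFin V x : ℕ) = (Fintype.equivFin V y : ℕ) := Nat.cast_injective (R := ℝ) h
    exact (Fintype.equivFin V).injective (Fin.ext h1)
  have hbd : BddAbove {k : ℕ | ∃ r : V → ℝ, Function.Injective r ∧ (ORD_A T r).card = k} := by
    refine ⟨Fintype.card (V × V), ?_⟩
    rintro k ⟨r, -, rfl⟩
    exact Finset.card_le_univ _
  obtain ⟨r, hr, hk⟩ := Nat.sSup_mem hne hbd
  refine ⟨r, hr, fun r' hr' => ?_⟩
  rw [hk]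
  exact le_csSup hbd ⟨r', hr', rfl⟩

theorem ORD_c {V : Type*} [Fintype V] (r : V → ℝ) {v : V} {c : ℝ} (hc : c < r v) :
    ∃ c', c < c' ∧ ∀ x, c < r x → c' < r x := by
  classical
  let F : Finset ℝ := (Finset.univ.filter fun x => c < r x).image r
  have hF : F.Nonempty := ⟨r v, Finset.mem_image.2 ⟨v, Finset.mem_filter.2 ⟨Finset.mem_univ _, hc⟩, rfl⟩⟩
  have hm : c < F.min' hF := by
    obtain ⟨x, hx, hx'⟩ := Finset.mem_image.1 (F.min'_mem hF)
    rw [← hx']
    exact (Finset.mem_filter.1 hx).2
  refine ⟨(c + F.min' hF) / 2, by linarith, fun x hx => ?_⟩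
  have h1 : F.min' hF ≤ r x :=
    F.min'_le _ (Finset.mem_image.2 ⟨x, Finset.mem_filter.2 ⟨Finset.mem_univ _, hx⟩, rfl⟩)
  linarith

/-- Median order.  Among all injective `r : V → ℝ` take one maximising the number of pairs
`(x, y)` with `T x y` and `r x < r y` (these numbers are bounded by `card V ^ 2`, so a maximum
exists; no finiteness of the set of `r` is needed; injective `r` exist, e.g. from
`Fintype.equivFin`).  Given `v` and `c < r v`, choose `c'` with `c < c'`, `c'` smaller than every
`r x > c`, `c'` not a value of `r`, and move `v` to `c'` (`Function.update r v c'`): only the pairs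
between `v` and the `x` with `c < r x < r v` change; before, the arcs `T x v` were counted, after,
the arcs `T v x`; by maximality the claim follows. -/
theorem exists_median {V : Type*} [Fintype V] (T : V → V → Prop) :
    ∃ r : V → ℝ, Function.Injective r ∧ ∀ v : V, ∀ c : ℝ, c < r v →
      {x | c < r x ∧ r x < r v ∧ T v x}.ncard ≤ {x | c < r x ∧ r x < r v ∧ T x v}.ncard := by
  classical
  obtain ⟨r, hr, hmax⟩ := ORD_max T
  refine ⟨r, hr, fun v c hc => ?_⟩
  obtain ⟨c', hc', hcx⟩ := ORD_c r hc
  have hinj : Function.Injective (Function.update r v c') := by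
    have hval : ∀ x, r x ≠ c' := by
      intro x hx
      have h1 : c < r x := by rw [hx]; exact hc'
      have h2 := hcx x h1
      linarith
    intro x y h
    by_cases hx : x = v
    · by_cases hy : y = v
      · rw [hx, hy]
      · rw [hx, Function.update_self, Function.update_of_ne hy] at h
        exact absurd h.symm (hval y)
    · by_cases hy : y = v
      · rw [hy, Function.update_self, Function.update_of_ne hx] at h
        exact absurd h (hval x)
      · rw [Function.update_of_ne hx, Function.update_of_ne hy] at h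
        exact hr h
  have h0 := hmax _ hinj
  let X1 : Finset V := Finset.univ.filter fun x => c < r x ∧ r x < r v ∧ T v x
  let X2 : Finset V := Finset.univ.filter fun x => c < r x ∧ r x < r v ∧ T x v
  have hX1 : {x | c < r x ∧ r x < r v ∧ T v x}.ncard = X1.card := by
    rw [← Set.ncard_coe_finset]
    congr 1
    ext x
    simp [X1]
  have hX2 : {x | c < r x ∧ r x < r v ∧ T x v}.ncard = X2.card := by
    rw [← Set.ncard_coe_finset]
    congr 1
    ext x
    simp [X2]
  have hm1 : ∀ x, x ∈ X1 ↔ c < r x ∧ r x < r v ∧ T v x := fun x => by simp [X1]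
  have hm2 : ∀ x, x ∈ X2 ↔ c < r x ∧ r x < r v ∧ T x v := fun x => by simp [X2]
  rw [hX1, hX2]
  have hA : ∀ (s : V → ℝ) (a b : V), (a, b) ∈ ORD_A T s ↔ T a b ∧ s a < s b := fun s a b => by
    simp [ORD_A]
  have hkey : ORD_A T (Function.update r v c')
      = (ORD_A T r \ X2.image fun x => (x, v)) ∪ X1.image fun x => (v, x) := by
    ext ⟨a, b⟩
    rw [Finset.mem_union, Finset.mem_sdiff, Finset.mem_image, Finset.mem_image, hA, hA]
    have e2 : (∃ x ∈ X2, (x, v) = (a, b)) ↔ b = v ∧ (c < r a ∧ r a < r v ∧ T a v) := by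
      constructor
      · rintro ⟨x, hx, hxe⟩
        rw [Prod.mk.injEq] at hxe
        obtain ⟨rfl, rfl⟩ := hxe
        exact ⟨rfl, (hm2 x).1 hx⟩
      · rintro ⟨rfl, h⟩
        exact ⟨a, (hm2 a).2 h, rfl⟩
    have e1 : (∃ x ∈ X1, (v, x) = (a, b)) ↔ a = v ∧ (c < r b ∧ r b < r v ∧ T v b) := by
      constructor
      · rintro ⟨x, hx, hxe⟩
        rw [Prod.mk.injEq] at hxe
        obtain ⟨rfl, rfl⟩ := hxe
        exact ⟨rfl, (hm1 x).1 hx⟩
      · rintro ⟨rfl, h⟩
        exact ⟨b, (hm1 b).2 h, rfl⟩
    rw [e1, e2]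
    by_cases ha : a = v
    · subst ha
      by_cases hb : b = a
      · subst hb
        simp
      · rw [Function.update_self, Function.update_of_ne hb]
        have hne : r b ≠ r a := fun h => hb (hr h)
        constructor
        · rintro ⟨h1, h2⟩
          rcases lt_or_gt_of_ne hne with h3 | h3
          · exact Or.inr ⟨rfl, by linarith, h3, h1⟩
          · exact Or.inl ⟨⟨h1, h3⟩, fun h4 => hb h4.1⟩
        · rintro (⟨⟨h1, h2⟩, -⟩ | ⟨-, h1, h2, h3⟩)
          · exact ⟨h1, hcx b (by linarith)⟩
          · exact ⟨h3, hcx b h1⟩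
    · by_cases hb : b = v
      · subst hb
        rw [Function.update_self, Function.update_of_ne ha]
        constructor
        · rintro ⟨h1, h2⟩
          have h3 : ¬ c < r a := fun h3 => by
            have := hcx a h3
            linarith
          have h4 := hcx b hc
          exact Or.inl ⟨⟨h1, by linarith⟩, fun h5 => h3 h5.2.1⟩
        · rintro (⟨⟨h1, h2⟩, h3⟩ | ⟨h1, -⟩)
          · refine ⟨h1, ?_⟩
            have h4 : ¬ c < r a := fun h4 => h3 ⟨rfl, h4, h2, h1⟩
            linarith [not_lt.1 h4]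
          · exact absurd h1 ha
      · rw [Function.update_of_ne ha, Function.update_of_ne hb]
        constructor
        · intro h
          exact Or.inl ⟨h, fun h4 => hb h4.1⟩
        · rintro (⟨h1, -⟩ | ⟨h1, -⟩)
          · exact h1
          · exact absurd h1 ha
  have hdisj : Disjoint (ORD_A T r \ X2.image fun x => (x, v)) (X1.image fun x => (v, x)) := by
    rw [Finset.disjoint_left]
    rintro ⟨a, b⟩ h1 h2
    obtain ⟨x, hx, hxe⟩ := Finset.mem_image.1 h2
    rw [Prod.mk.injEq] at hxe
    obtain ⟨rfl, rfl⟩ := hxe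
    have h3 := ((hA r _ _).1 (Finset.mem_sdiff.1 h1).1).2
    have h4 := ((hm1 x).1 hx).2.1
    linarith
  have hsub : (X2.image fun x => (x, v)) ⊆ ORD_A T r := by
    rintro ⟨a, b⟩ h2
    obtain ⟨x, hx, hxe⟩ := Finset.mem_image.1 h2
    rw [Prod.mk.injEq] at hxe
    obtain ⟨rfl, rfl⟩ := hxe
    have h4 := (hm2 x).1 hx
    exact (hA r _ _).2 ⟨h4.2.2, h4.2.1⟩
  have hc1 : (X1.image fun x => (v, x)).card = X1.card :=
    Finset.card_image_of_injective _ fun x y h => (Prod.mk.inj h).2
  have hc2 : (X2.image fun x => (x, v)).card = X2.card :=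
    Finset.card_image_of_injective _ fun x y h => (Prod.mk.inj h).1
  rw [hkey, Finset.card_union_of_disjoint hdisj, Finset.card_sdiff_of_subset hsub, hc1, hc2] at h0
  have h5 := Finset.card_le_card hsub
  rw [hc2] at h5
  omega

end Vale.Agent.P038
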