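import Vale.Agent.P038.Euler

/-! P038: regular oriented graphs of degree `d` on `2 d + 1 + k` vertices. -/

namespace Vale.Agent.P038.Euler

open Finset

variable {V : Type} [Fintype V]

open Classical in
/-- Second in-neighbours of `c` inside `far v`. -/
noncomputable def sin (D : V → V → Prop) (v c : V) : Finset V :=
  (far D v).filter fun x => x ≠ c ∧ ¬ D x c ∧ ∃ y ∈ far D v, D x y ∧ D y c

open Classical in
/-- Lower bound for `sin`. -/
theorem sin_lower (D : V → V → Prop) (hD : ∀ x y, D x y → ¬ D y x) (v c : V)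
    (f : ℕ) (hf : ∀ b ∈ far D v, f ≤ (inn D b ∩ far D v).card)
    (hne : (inn D c ∩ far D v).Nonempty) :
    2 * f + 1 ≤ 2 * (sin D v c).card + (inn D c ∩ far D v).card := by
  obtain ⟨y, hy, h⟩ := exists_small D hD _ hne
  rw [mem_inter, mem_inn] at hy
  have h1 := hf y hy.2
  have h2 : inn D y ∩ far D v ⊆ sin D v c ∪ (inn D y ∩ (inn D c ∩ far D v)) := by
    intro x hx
    rw [mem_inter, mem_inn] at hx
    rw [mem_union, sin, mem_filter, mem_inter, mem_inter, mem_inn, mem_inn]
    by_cases hxc : D x c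
    · exact Or.inr ⟨hx.1, hxc, hx.2⟩
    · refine Or.inl ⟨hx.2, ?_, hxc, y, hy.2, hx.1, hy.1⟩
      rintro rfl
      exact hD _ _ hx.1 hy.1
  have h3 := (card_le_card h2).trans (card_union_le _ _)
  omega

open Classical in
/-- The packing inequality for a pair `v`, `c` with `c ∈ far v`. -/
theorem pack (D : V → V → Prop) (hD : ∀ x y, D x y → ¬ D y x) (v c : V) (hc : c ∈ far D v) :
    1 + (out D v).card + (inn D c).card + (sin D v c).card + (far (rev D) c).card
      ≤ Fintype.card V + (out D v ∩ far (rev D) c).card := by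
  have hv : v ∈ far (rev D) c := (far_rev D v c).1 hc
  have hc1 := mem_far.1 hc
  set R : Finset V := ((far (rev D) c).erase v) \ out D v with hR
  have hRm : ∀ x, x ∈ R ↔ (x ≠ v ∧ x ∈ far (rev D) c) ∧ ¬ D v x := by
    intro x
    rw [hR, mem_sdiff, mem_erase, mem_out]
  have hRc : (far (rev D) c).card ≤ R.card + 1 + (out D v ∩ far (rev D) c).card := by
    have h1 : far (rev D) c ⊆ R ∪ {v} ∪ (out D v ∩ far (rev D) c) := by
      intro x hx
      simp only [mem_union, hRm, mem_singleton, mem_inter, mem_out]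
      by_cases h2 : x = v
      · exact Or.inl (Or.inr h2)
      · by_cases h3 : D v x
        · exact Or.inr ⟨h3, hx⟩
        · exact Or.inl (Or.inl ⟨⟨h2, hx⟩, h3⟩)
    refine (card_le_card h1).trans ((card_union_le _ _).trans ?_)
    have := card_union_le R {v}
    rw [card_singleton] at this
    omega
  have d0 : Disjoint (out D v) (inn D c) := by
    rw [disjoint_left]
    intro u hu hu'
    rw [mem_out] at hu
    rw [mem_inn] at hu'
    exact hc1.2.2 ⟨u, hu, hu'⟩
  have d1 : Disjoint (out D v ∪ inn D c) (sin D v c) := by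
    rw [disjoint_left]
    intro u hu hu'
    rw [sin, mem_filter] at hu'
    rw [mem_union, mem_out, mem_inn] at hu
    rcases hu with hu | hu
    · exact (mem_far.1 hu'.1).2.1 hu
    · exact hu'.2.2.1 hu
  have d2 : Disjoint (out D v ∪ inn D c ∪ sin D v c) R := by
    rw [disjoint_left]
    intro u hu hu'
    rw [hRm, mem_far] at hu'
    rw [mem_union, mem_union, mem_out, mem_inn, sin, mem_filter] at hu
    rcases hu with (hu | hu) | hu
    · exact hu'.2 hu
    · exact hu'.1.2.2.1 hu
    · obtain ⟨-, -, -, y, -, hy1, hy2⟩ := hu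
      exact hu'.1.2.2.2 ⟨y, hy2, hy1⟩
  have d3 : Disjoint (out D v ∪ inn D c ∪ sin D v c ∪ R) {v, c} := by
    rw [disjoint_left]
    intro u hu hu'
    rw [mem_union, hRm, mem_far, mem_union, mem_union, mem_out, mem_inn, sin, mem_filter] at hu
    rw [mem_insert, mem_singleton] at hu'
    rcases hu' with rfl | rfl
    · rcases hu with ((hu | hu) | hu) | hu
      · exact self_out hD _ hu
      · exact hc1.2.1 hu
      · exact (mem_far.1 hu.1).1 rfl
      · exact hu.1.1 rfl
    · rcases hu with ((hu | hu) | hu) | hu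
      · exact hc1.2.1 hu
      · exact self_out hD _ hu
      · exact hu.2.1 rfl
      · exact hu.1.2.1 rfl
  have e1 := card_le_univ (out D v ∪ inn D c ∪ sin D v c ∪ R ∪ {v, c})
  rw [card_union_of_disjoint d3, card_union_of_disjoint d2, card_union_of_disjoint d1,
    card_union_of_disjoint d0, card_insert_of_notMem (by simp [Ne.symm hc1.1]),
    card_singleton] at e1
  omega

/-- Regular oriented graphs of degree `d` on `2 d + 1 + k` vertices. -/
theorem regular [Nonempty V] (D : V → V → Prop) (hD : ∀ x y, D x y → ¬ D y x) (d k : ℕ)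
    (hN : Fintype.card V = 2 * d + 1 + k)
    (ho : ∀ v, (out D v).card = d) (hi : ∀ v, (inn D v).card = d) :
    ∃ v, 5 * (out D v).card ≤ 5 * (sec D v).card + (3 * k - 5) := by
  classical
  by_contra hcon
  push Not at hcon
  have hD' : ∀ x y, rev D x y → ¬ rev D y x := fun x y h h' => hD _ _ h h'
  have hlt : ∀ v, (sec D v).card < d := fun v => by
    have := hcon v
    rw [ho] at this
    omega
  -- the minimal deficit
  obtain ⟨v0, -, hv0⟩ := exists_max_image univ (fun v => (sec D v).card) univ_nonempty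
  have hcon0 := hcon v0
  have hlt0 := hlt v0
  rw [ho] at hcon0
  set a : ℤ := (d : ℤ) - (sec D v0).card with ha
  set x : V → ℤ := fun v => (d : ℤ) - (sec D v).card with hx
  set y : V → ℤ := fun v => (d : ℤ) - (sec (rev D) v).card with hy
  have ha1 : 1 ≤ a := by omega
  have ha2 : 3 * (k : ℤ) < 5 * a + 5 := by omega
  have hxa : ∀ v, a ≤ x v := fun v => by
    have := hv0 v (mem_univ v)
    simp only [hx, ha]
    omega
  have hxy : ∑ v, x v = ∑ v, y v := by
    simp only [hx, hy, sum_sub_distrib]
    have := sum_sec_rev D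
    have h' : ∑ v, ((sec (rev D) v).card : ℤ) = ∑ v, ((sec D v).card : ℤ) := by exact_mod_cast this
    rw [h']
  have hL : ∀ v, ((far D v).card : ℤ) = k + x v := fun v => by
    have := card_far D hD v
    rw [ho] at this
    simp only [hx]
    omega
  have hL' : ∀ v, ((far (rev D) v).card : ℤ) = k + y v := fun v => by
    have := card_far (rev D) hD' v
    rw [out_rev, hi] at this
    simp only [hy]
    omega
  -- lower bound
  have hlow : ∀ v, (k + x v) * (3 * x v + 3 - k) ≤ 4 * ∑ c ∈ far D v, ((sin D v c).card : ℤ) := by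
    intro v
    have h1 : ∀ b ∈ far D v, d - (sec D v).card ≤ (inn D b ∩ far D v).card := by
      intro b hb
      have := inn_le D v b hb
      rw [hi] at this
      omega
    have h2 : ∀ c ∈ far D v, 2 * x v + 1 ≤
        2 * ((sin D v c).card : ℤ) + ((inn D c ∩ far D v).card : ℤ) := by
      intro c hc
      have h3 := h1 c hc
      have h4 := hlt v
      have h5 : 0 < (inn D c ∩ far D v).card := by omega
      have h6 := sin_lower D hD v c _ h1 (card_pos.1 h5)
      simp only [hx]
      omega
    have h3 := sum_le_sum h2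
    rw [sum_const, nsmul_eq_mul, sum_add_distrib, ← mul_sum] at h3
    have h4 := edges_le D hD (far D v)
    have h5 : 2 * ∑ c ∈ far D v, ((inn D c ∩ far D v).card : ℤ) + (far D v).card
        ≤ ((far D v).card : ℤ) * (far D v).card := by exact_mod_cast h4
    rw [hL v] at h3 h5
    nlinarith
  -- upper bound
  have hupp : ∀ c, 2 * ∑ v ∈ far (rev D) c, ((sin D v c).card : ℤ)
      ≤ (k + y c) * (k - 1 - y c) := by
    intro c
    have h2 : ∀ v ∈ far (rev D) c, y c + ((sin D v c).card : ℤ)
        ≤ ((out D v ∩ far (rev D) c).card : ℤ) := by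
      intro v hv
      have h3 := pack D hD v c ((far_rev D v c).2 hv)
      have h4 := hL' c
      rw [ho, hi] at h3
      omega
    have h3 := sum_le_sum h2
    rw [sum_add_distrib, sum_const, nsmul_eq_mul] at h3
    have h4 := edges_le (rev D) hD' (far (rev D) c)
    simp only [inn_rev] at h4
    have h5 : 2 * ∑ v ∈ far (rev D) c, ((out D v ∩ far (rev D) c).card : ℤ)
        + (far (rev D) c).card
        ≤ ((far (rev D) c).card : ℤ) * (far (rev D) c).card := by exact_mod_cast h4
    rw [hL' c] at h3 h5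
    nlinarith
  -- double counting
  have hdc : ∑ v, ∑ c ∈ far D v, ((sin D v c).card : ℤ)
      = ∑ c, ∑ v ∈ far (rev D) c, ((sin D v c).card : ℤ) := by
    refine sum_comm' fun v c => ?_
    simp only [mem_univ, true_and, and_true]
    exact far_rev D v c
  have hs1 : ∑ v, (k + x v) * (3 * x v + 3 - k) ≤ ∑ v, 2 * ((k + y v) * (k - 1 - y v)) := by
    calc ∑ v, (k + x v) * (3 * x v + 3 - k)
        ≤ ∑ v, 4 * ∑ c ∈ far D v, ((sin D v c).card : ℤ) := sum_le_sum fun v _ => hlow v
      _ = 2 * (2 * ∑ c, ∑ v ∈ far (rev D) c, ((sin D v c).card : ℤ)) := by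
          rw [← mul_sum, hdc]; ring
      _ = ∑ c, 2 * (2 * ∑ v ∈ far (rev D) c, ((sin D v c).card : ℤ)) := by
          rw [← mul_sum, ← mul_sum]
      _ ≤ ∑ v, 2 * ((k + y v) * (k - 1 - y v)) :=
          sum_le_sum fun c _ => by linarith [hupp c]
  -- convexity
  have hs2 : ∑ v : V, (((k : ℤ) + a) * (5 * a + 5 - 3 * k)) ≤
      ∑ v, ((k + x v) * (3 * x v + 3 - k) - 2 * ((k + y v) * (k - 1 - y v))
        + 2 * (2 * a + 1) * (x v - y v)) := by
    refine sum_le_sum fun v _ => ?_
    have h1 := hxa v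
    have hk0 : (0 : ℤ) ≤ k := Int.natCast_nonneg k
    nlinarith [sq_nonneg (x v - a), sq_nonneg (y v - a), mul_nonneg (sub_nonneg.2 h1) hk0,
      mul_nonneg (sub_nonneg.2 h1) (by linarith : (0 : ℤ) ≤ a)]
  have hs3 : ∑ v, ((k + x v) * (3 * x v + 3 - k) - 2 * ((k + y v) * (k - 1 - y v))
        + 2 * (2 * a + 1) * (x v - y v)) = ∑ v, (k + x v) * (3 * x v + 3 - k)
        - ∑ v, 2 * ((k + y v) * (k - 1 - y v)) + 2 * (2 * a + 1) * (∑ v, x v - ∑ v, y v) := by
    rw [← sum_sub_distrib (f := x) (g := y), mul_sum (f := fun v => x v - y v),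
      ← sum_sub_distrib, ← sum_add_distrib]
  rw [hs3, hxy, sub_self, mul_zero, add_zero, sum_const, nsmul_eq_mul] at hs2
  have hcard : (0 : ℤ) < ((univ : Finset V).card : ℤ) := by
    exact_mod_cast card_pos.2 univ_nonempty
  have hpos : 0 < ((k : ℤ) + a) * (5 * a + 5 - 3 * k) :=
    mul_pos (by omega) (by linarith)
  nlinarith [mul_pos hcard hpos]

end Vale.Agent.P038.Euler
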