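import Vale.Agent.P038.Thresh

/-! P038 module SAMPLE: a good sample gives the vertex (deterministic). -/

namespace Vale.Agent.P038

/-- Let `Q` be the number of pairs `i ≠ j` with `Bad (x i) (x j)`, `U` the set of the `i` with no
bad `j ≠ i`; `# Uᶜ ≤ Q < m + 1`, so `U` is nonempty.  On `U` (subtype) consider
`D' i j := D (x i) (x j)` and `H' := H.comap x` (restricted to `U`): `snc_threshold` applies (for
`i ≠ j` in `U` the pair is not bad, in particular `x i ≠ x j`) and gives `i ∈ U` with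
`#N1 D' i ≤ #N2 D' i`.  Now `#{j | x (i.succAbove j) ∈ N1 D (x i)} ≤ #N1 D' i + Q` and
`#N2 D' i ≤ #{j | x (i.succAbove j) ∈ N2 D (x i)}`; put `v = x i`. -/
theorem of_sample {V : Type*} [Fintype V] (D : V → V → Prop) (hD : ∀ x y, D x y → ¬ D y x)
    (H : SimpleGraph V) (hH : IsThreshold H) (ω : V → ℝ) (m : ℕ) (hm : 0 < m)
    (x : Fin (m + 1) → V) (t q : ℝ) (hq : q ≤ m)
    (hQ : ({p : Fin (m + 1) × Fin (m + 1) | p.1 ≠ p.2 ∧ Bad D H (x p.1) (x p.2)}.ncard : ℝ) < q)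
    (h1 : ∀ i : Fin (m + 1), (m : ℝ) * wt ω (N1 D (x i)) - t <
      (({j | x (i.succAbove j) ∈ N1 D (x i)} : Set (Fin m)).ncard : ℝ))
    (h2 : ∀ i : Fin (m + 1), (({j | x (i.succAbove j) ∈ N2 D (x i)} : Set (Fin m)).ncard : ℝ) <
      (m : ℝ) * wt ω (N2 D (x i)) + t) :
    ∃ v, (m : ℝ) * wt ω (N1 D v) ≤ (m : ℝ) * wt ω (N2 D v) + 2 * t + q := by
  classical
  set Q : Set (Fin (m + 1) × Fin (m + 1)) := {p | p.1 ≠ p.2 ∧ Bad D H (x p.1) (x p.2)} with hQdef
  set U : Set (Fin (m + 1)) := {i | ∀ j, j ≠ i → ¬ Bad D H (x i) (x j)} with hU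
  have hUQ : Uᶜ.ncard ≤ Q.ncard := by
    have hsub : Uᶜ ⊆ Prod.fst '' Q := by
      intro i hi
      have hi' : ¬ ∀ j, j ≠ i → ¬ Bad D H (x i) (x j) := hi
      push Not at hi'
      obtain ⟨j, hj, hb⟩ := hi'
      exact ⟨(i, j), ⟨hj.symm, hb⟩, rfl⟩
    exact (Set.ncard_le_ncard hsub (Set.toFinite _)).trans (Set.ncard_image_le (Set.toFinite _))
  have hUne : U.Nonempty := by
    by_contra hne
    rw [Set.not_nonempty_iff_eq_empty] at hne
    rw [hne, Set.compl_empty, Set.ncard_univ, Nat.card_eq_fintype_card, Fintype.card_fin] at hUQ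
    have h3 : ((m + 1 : ℕ) : ℝ) ≤ (Q.ncard : ℝ) := by exact_mod_cast hUQ
    push_cast at h3
    linarith
  have hbad : ∀ i j : U, i ≠ j → ¬ Bad D H (x i) (x j) := fun i j hij =>
    i.2 j fun h => hij (Subtype.ext h.symm)
  have hxne : ∀ i j : U, i ≠ j → x i ≠ x j := fun i j hij h => hbad i j hij (Or.inl h)
  have : Nonempty U := hUne.to_subtype
  obtain ⟨i, hi⟩ := snc_threshold (V := U) (fun i j => D (x i) (x j)) (fun i j h => hD _ _ h)
    (H.comap (fun i : U => x i))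
    (fun a b c d hab hcd hac hbd had hbc hn => hH _ _ _ _ hab hcd (hxne _ _ hac) (hxne _ _ hbd)
      (hxne _ _ had) (hxne _ _ hbc) hn)
    (fun i j hij => by
      have h3 := hbad i j hij
      unfold Bad at h3
      rw [not_or, not_not] at h3
      exact h3.2)
  have hA : ({j | x ((i : Fin (m + 1)).succAbove j) ∈ N1 D (x i)} : Set (Fin m)).ncard ≤
      (N1 (fun i j : U => D (x i) (x j)) i).ncard + Q.ncard := by
    rw [← Set.ncard_image_of_injective _ (Fin.succAbove_right_injective (p := (i : Fin (m + 1))))]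
    rw [← Set.ncard_image_of_injective (N1 (fun i j : U => D (x i) (x j)) i)
      Subtype.val_injective]
    refine le_trans (Set.ncard_le_ncard (t := (Subtype.val '' (N1 (fun i j : U => D (x i) (x j)) i))
      ∪ Uᶜ) ?_ (Set.toFinite _)) ((Set.ncard_union_le _ _).trans (by gcongr))
    rintro k ⟨j, hj, rfl⟩
    by_cases hk : (i : Fin (m + 1)).succAbove j ∈ U
    · left
      exact ⟨⟨_, hk⟩, hj, rfl⟩
    · right
      exact hk
  have hB : (N2 (fun i j : U => D (x i) (x j)) i).ncard ≤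
      ({j | x ((i : Fin (m + 1)).succAbove j) ∈ N2 D (x i)} : Set (Fin m)).ncard := by
    rw [← Set.ncard_image_of_injective {j | x ((i : Fin (m + 1)).succAbove j) ∈ N2 D (x i)}
      (Fin.succAbove_right_injective (p := (i : Fin (m + 1))))]
    rw [← Set.ncard_image_of_injective (N2 (fun i j : U => D (x i) (x j)) i)
      Subtype.val_injective]
    refine Set.ncard_le_ncard ?_ (Set.toFinite _)
    rintro _ ⟨k, ⟨hki, hk1, u, hu1, hu2⟩, rfl⟩
    obtain ⟨j, hj⟩ := Fin.exists_succAbove_eq (fun h => hki (Subtype.ext h) : (k : Fin (m + 1)) ≠ i)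
    refine ⟨j, ?_, hj⟩
    show x ((i : Fin (m + 1)).succAbove j) ∈ N2 D (x i)
    rw [hj]
    exact ⟨hxne _ _ hki, hk1, x u, hu1, hu2⟩
  refine ⟨x i, ?_⟩
  have h3 := h1 i
  have h4 := h2 i
  have h5 : (({j | x ((i : Fin (m + 1)).succAbove j) ∈ N1 D (x i)} : Set (Fin m)).ncard : ℝ) ≤
      (({j | x ((i : Fin (m + 1)).succAbove j) ∈ N2 D (x i)} : Set (Fin m)).ncard : ℝ) +
        (Q.ncard : ℝ) := by
    exact_mod_cast hA.trans (by gcongr; exact hi.trans hB)
  linarith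

end Vale.Agent.P038
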