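import Vale.Agent.P038.Order
import Vale.Agent.P038.Feed

/-! P038 module THR: tournaments missing a threshold graph. -/

namespace Vale.Agent.P038

/-- The non-adjacent pairs are exactly the edges of a threshold graph.  Call `(a, b)` good if
`∀ v, D v a → D v b ∨ ∃ c, D v c ∧ D c b`.  For every missing edge `ab`, `(a, b)` or `(b, a)` is
good: otherwise there are `v` with `D v a`, not `D v b`, no path `v → c → b`, and `u` with `D u b`,
not `D u a`, no path `u → c → a`; `u ≠ v`; `u`, `v` are not adjacent (`v → u → b`, `u → v → a` are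
excluded), so `H.Adj u v`, and `¬ H.Adj a v`, `¬ H.Adj b u`: contradiction to `IsThreshold`
applied to `a b v u`. -/
theorem good_or {V : Type*} (D : V → V → Prop) (hD : ∀ x y, D x y → ¬ D y x)
    (H : SimpleGraph V) (hH : IsThreshold H)
    (hDH : ∀ x y, x ≠ y → ((¬ D x y ∧ ¬ D y x) ↔ H.Adj x y)) (a b : V) (hab : H.Adj a b) :
    (∀ v, D v a → D v b ∨ ∃ c, D v c ∧ D c b) ∨ (∀ v, D v b → D v a ∨ ∃ c, D v c ∧ D c a) := by
  by_contra hcon
  rw [not_or] at hcon
  obtain ⟨h1, h2⟩ := hcon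
  push Not at h1 h2
  obtain ⟨v, hva, hvb, hv⟩ := h1
  obtain ⟨u, hub, hua, hu⟩ := h2
  have hne : ∀ x y, D x y → x ≠ y := by
    rintro x y hxy rfl
    exact hD _ _ hxy hxy
  have hab' := (hDH a b hab.ne).2 hab
  have hav : a ≠ v := (hne v a hva).symm
  have hbu : b ≠ u := (hne u b hub).symm
  have hau : a ≠ u := by
    rintro rfl
    exact hab'.1 hub
  have hbv : b ≠ v := by
    rintro rfl
    exact hab'.2 hva
  have huv : v ≠ u := by
    rintro rfl
    exact hvb hub
  have hvu : H.Adj v u := by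
    refine (hDH v u huv).1 ⟨fun h => hv u h hub, fun h => hu v h hva⟩
  have hnav : ¬ H.Adj a v := fun h => ((hDH a v hav).2 h).2 hva
  have hnbu : ¬ H.Adj b u := fun h => ((hDH b u hbu).2 h).2 hub
  exact hnbu (hH a b v u hab hvu hav hbu hau hbv hnav)

/-- Let `conv a b` be an orientation of the edges of `H` with `conv a b → (a, b) good` (use
`good_or` and e.g. a linear order / injection to break ties) and `T = D` plus `conv`: a tournament.
Take `r` from `exists_median T`, `f` with `r f` maximal and let `T'` be `T` with the arcs of `H` at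
`f` directed towards `f`.  The inequalities `hr` still hold for `T'` (for `v ≠ f` nothing changes,
as `f` is above `v`; for `v = f` out-arcs only became in-arcs).  By `feed`, `#N1 T' f ≤ #N2 T' f`.
`N1 T' f = N1 D f` and `N2 T' f ⊆ N2 D f` (if `f → u` and `u → w` is a new arc then `w ≠ f` and
goodness of `(u, w)` gives `D f w` or a path `f → c → w` in `D`). -/
theorem snc_threshold {V : Type*} [Fintype V] [Nonempty V] (D : V → V → Prop)
    (hD : ∀ x y, D x y → ¬ D y x) (H : SimpleGraph V) (hH : IsThreshold H)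
    (hDH : ∀ x y, x ≠ y → ((¬ D x y ∧ ¬ D y x) ↔ H.Adj x y)) :
    ∃ v, (N1 D v).ncard ≤ (N2 D v).ncard := by
  let good : V → V → Prop := fun a b => ∀ v, D v a → D v b ∨ ∃ c, D v c ∧ D c b
  let ν : V → ℕ := fun v => (Fintype.equivFin V v : ℕ)
  have hν : ∀ x y, ν x = ν y → x = y := fun x y h => (Fintype.equivFin V).injective (Fin.ext h)
  let conv : V → V → Prop := fun a b => H.Adj a b ∧ good a b ∧ (¬ good b a ∨ ν a < ν b)
  have hcD : ∀ x y, conv x y → ¬ D x y ∧ ¬ D y x := fun x y h => (hDH x y h.1.ne).2 h.1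
  have hcc : ∀ x y, conv x y → ¬ conv y x := by
    rintro x y ⟨-, hg, h⟩ ⟨-, hg', h'⟩
    rcases h with h | h
    · exact h hg'
    · rcases h' with h' | h'
      · exact h' hg
      · exact absurd h (not_lt.2 h'.le)
  have hct : ∀ x y, H.Adj x y → conv x y ∨ conv y x := by
    intro x y hxy
    have h1 : good x y ∨ good y x := good_or D hD H hH hDH x y hxy
    by_cases hg : good x y
    · by_cases hg' : good y x
      · rcases lt_trichotomy (ν x) (ν y) with h | h | h
        · exact Or.inl ⟨hxy, hg, Or.inr h⟩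
        · exact absurd (hν x y h) hxy.ne
        · exact Or.inr ⟨hxy.symm, hg', Or.inr h⟩
      · exact Or.inl ⟨hxy, hg, Or.inl hg'⟩
    · exact Or.inr ⟨hxy.symm, h1.resolve_left hg, Or.inl hg⟩
  let T : V → V → Prop := fun x y => D x y ∨ conv x y
  obtain ⟨r, hinj, hr⟩ := exists_median T
  obtain ⟨f, hf⟩ := Finite.exists_max r
  let T' : V → V → Prop := fun x y => D x y ∨ (H.Adj x y ∧ y = f) ∨ (x ≠ f ∧ y ≠ f ∧ conv x y)
  have hT' : ∀ x y, T' x y → ¬ T' y x := by
    intro x y h h'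
    rcases h with h | ⟨h, hy⟩ | ⟨hx, hy, h⟩
    · rcases h' with h' | ⟨h', -⟩ | ⟨-, -, h'⟩
      · exact hD _ _ h h'
      · exact ((hDH y x h'.ne).2 h').2 h
      · exact (hcD _ _ h').2 h
    · rcases h' with h' | ⟨h', hx⟩ | ⟨hy', -, h'⟩
      · exact ((hDH x y h.ne).2 h).2 h'
      · exact h.ne (hx.trans hy.symm)
      · exact hy' hy
    · rcases h' with h' | ⟨h', hx'⟩ | ⟨-, -, h'⟩
      · exact (hcD _ _ h).2 h'
      · exact hx hx'
      · exact hcc _ _ h h'
  have htot : ∀ x y, x ≠ y → T' x y ∨ T' y x := by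
    intro x y hxy
    by_cases h1 : D x y
    · exact Or.inl (Or.inl h1)
    by_cases h2 : D y x
    · exact Or.inr (Or.inl h2)
    have hadj := (hDH x y hxy).1 ⟨h1, h2⟩
    by_cases hx : x = f
    · exact Or.inr (Or.inr (Or.inl ⟨hadj.symm, hx⟩))
    by_cases hy : y = f
    · exact Or.inl (Or.inr (Or.inl ⟨hadj, hy⟩))
    rcases hct x y hadj with h | h
    · exact Or.inl (Or.inr (Or.inr ⟨hx, hy, h⟩))
    · exact Or.inr (Or.inr (Or.inr ⟨hy, hx, h⟩))
  have hr' : ∀ v : V, ∀ c : ℝ, c < r v →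
      {x | c < r x ∧ r x < r v ∧ T' v x}.ncard ≤ {x | c < r x ∧ r x < r v ∧ T' x v}.ncard := by
    intro v c hc
    have hxf : ∀ x, r x < r v → x ≠ f := by
      rintro x hx rfl
      exact absurd (hf v) (not_le.2 hx)
    have h1 : {x | c < r x ∧ r x < r v ∧ T' v x} ⊆ {x | c < r x ∧ r x < r v ∧ T v x} := by
      rintro x ⟨hx1, hx2, hx3⟩
      refine ⟨hx1, hx2, ?_⟩
      rcases hx3 with h | ⟨-, h⟩ | ⟨-, -, h⟩
      · exact Or.inl h
      · exact absurd h (hxf x hx2)
      · exact Or.inr h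
    have h2 : {x | c < r x ∧ r x < r v ∧ T x v} ⊆ {x | c < r x ∧ r x < r v ∧ T' x v} := by
      rintro x ⟨hx1, hx2, hx3⟩
      refine ⟨hx1, hx2, ?_⟩
      rcases hx3 with h | h
      · exact Or.inl h
      · by_cases hv : v = f
        · exact Or.inr (Or.inl ⟨h.1, hv⟩)
        · exact Or.inr (Or.inr ⟨hxf x hx2, hv, h⟩)
    exact (Set.ncard_le_ncard h1 (Set.toFinite _)).trans
      ((hr v c hc).trans (Set.ncard_le_ncard h2 (Set.toFinite _)))
  have hfeed := feed T' hT' htot r hinj hr' f hf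
  have hDf : ∀ u, T' f u → D f u := by
    intro u hu
    rcases hu with h | ⟨h, hu⟩ | ⟨h, -, -⟩
    · exact h
    · exact absurd hu.symm h.ne
    · exact absurd rfl h
  have hN1 : N1 T' f = N1 D f := by
    ext u
    exact ⟨fun h => hDf u h, fun h => Or.inl h⟩
  have hN2 : N2 T' f ⊆ N2 D f := by
    rintro w ⟨hw, hnw, u, hfu, huw⟩
    have hnD : ¬ D f w := fun h => hnw (Or.inl h)
    refine ⟨hw, hnD, ?_⟩
    rcases huw with h | ⟨-, h⟩ | ⟨-, -, h⟩
    · exact ⟨u, hDf u hfu, h⟩
    · exact absurd h hw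
    · exact (h.2.1 f (hDf u hfu)).resolve_left hnD
  refine ⟨f, ?_⟩
  rw [← hN1]
  exact hfeed.trans (Set.ncard_le_ncard hN2 (Set.toFinite _))

end Vale.Agent.P038
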